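import Vale.Agent.P267.H869.Kern

/-!
# P267 / XA-SMOOTH (helper869): Fubini for functionals, duality of the operators `T j`
-/

set_option linter.unusedVariables false
set_option linter.unusedSectionVars false

open MeasureTheory Set Filter Metric Topology
open scoped ContDiff

noncomputable section

namespace Vale.Agent.P267.H869

open Vale.Agent.P267.H667 Vale.Agent.P267.H439

section fub

variable {W : Type} [NormedAddCommGroup W] [NormedSpace ℂ W] [CompleteSpace W]

/-- `T j f y = ∫ K_j(y - z) f(z) dz` -/
theorem T_eq' {F : Type*} [NormedAddCommGroup F] [NormedSpace ℂ F] (j : Fin 2) (f : C2 → F)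
    (y : C2) : T j f y = ∫ z, K j (y - z) • f z := by
  rw [T_apply]
  have := integral_sub_left_eq_self (fun w => K j w • f (y - w)) volume y
  rw [← this]
  simp only [sub_sub_cancel]

/-- Fubini for a continuous linear functional -/
theorem Phi_T {R R₁ : ℝ} {ψ : C2 → W} (hψ : ContDiff ℝ ∞ ψ)
    (h0 : ∀ y ∈ ball (0 : C2) R₁, ψ y = 0) (Φ : C(closedBall (0 : C2) R, W) →L[ℂ] ℂ) (j : Fin 2)
    {f : C2 → ℂ} (hf : Test (ball 0 R₁) f) :
    Φ (res 0 R fun y => T j f y • ψ y) = ∫ z, f z * Φ (Gk R ψ j z) := by
  let H : C2 → C(closedBall (0 : C2) R, W) := fun z => f z • Gk R ψ j z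
  have hHs : tsupport H ⊆ tsupport f := tsupport_smul_subset_left _ _
  have hHc : Continuous H := by
    refine continuous_of_tsupport fun z hz => ?_
    have hz' : z ∈ ball (0 : C2) R₁ := hf.supp (hHs hz)
    exact hf.continuous.continuousAt.smul
      ((contDiffOn_Gk hψ h0 j).continuousOn.continuousAt (isOpen_ball.mem_nhds hz'))
  have hHk : HasCompactSupport H := hf.cpt.of_isClosed_subset (isClosed_tsupport _) hHs
  have hHi : Integrable H := hHc.integrable_of_hasCompactSupport hHk
  have h1 : ∫ z, H z = res 0 R fun y => T j f y • ψ y := by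
    ext y
    have hT : Continuous fun y => T j f y • ψ y :=
      (continuous_T hf.continuous hf.cpt).smul hψ.continuous
    rw [res_apply hT]
    let ev : C(closedBall (0 : C2) R, W) →L[ℝ] W := ContinuousMap.evalCLM ℝ y
    have h2 : (∫ z, H z) y = ev (∫ z, H z) := rfl
    rw [h2, ← ev.integral_comp_comm hHi, T_eq', ← integral_smul_const]
    refine integral_congr_ae (Eventually.of_forall fun z => ?_)
    show (f z • Gk R ψ j z) y = (K j (y - z) • f z) • ψ y
    by_cases hz : z ∈ ball (0 : C2) R₁
    · rw [ContinuousMap.smul_apply, Gk_apply hψ h0 j hz, smul_smul, smul_eq_mul, mul_comm]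
    · rw [hf.eq_zero hz]
      simp
  have h3 := Φ.integral_comp_comm hHi
  rw [← h1, ← h3]
  refine integral_congr_ae (Eventually.of_forall fun z => ?_)
  show Φ (f z • Gk R ψ j z) = f z * Φ (Gk R ψ j z)
  rw [map_smul, smul_eq_mul]

/-- the integrand is integrable -/
theorem integrable_phi {R R₁ : ℝ} {ψ : C2 → W} (hψ : ContDiff ℝ ∞ ψ)
    (h0 : ∀ y ∈ ball (0 : C2) R₁, ψ y = 0) (Φ : C(closedBall (0 : C2) R, W) →L[ℂ] ℂ) (j : Fin 2)
    {f : C2 → ℂ} (hf : Test (ball 0 R₁) f) : Integrable fun z => f z * Φ (Gk R ψ j z) := by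
  have hs : tsupport (fun z => f z * Φ (Gk R ψ j z)) ⊆ tsupport f :=
    tsupport_smul_subset_left (f := f) (g := fun z => Φ (Gk R ψ j z))
  have hc : Continuous fun z => f z * Φ (Gk R ψ j z) := by
    refine continuous_of_tsupport fun z hz => ?_
    have hz' : z ∈ ball (0 : C2) R₁ := hf.supp (hs hz)
    exact hf.continuous.continuousAt.mul
      ((contDiffOn_Phi hψ h0 Φ j).continuousOn.continuousAt (isOpen_ball.mem_nhds hz'))
  exact hc.integrable_of_hasCompactSupport (hf.cpt.of_isClosed_subset (isClosed_tsupport _) hs)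

end fub

section dual

/-- a compactly supported continuous function on `ℂ²` is supported in a ball -/
theorem exists_supp_ball {F : Type*} [NormedAddCommGroup F] {f : C2 → F}
    (hc : HasCompactSupport f) : ∃ r : ℝ, 0 < r ∧ ∀ z, r ≤ ‖z‖ → f z = 0 := by
  obtain ⟨r, hr⟩ := hc.isCompact.isBounded.subset_ball (0 : C2)
  refine ⟨max r 1, by positivity, fun z hz => ?_⟩
  refine image_eq_zero_of_notMem_tsupport fun h => ?_
  have := hr h
  rw [mem_ball_zero_iff] at this
  exact absurd (this.trans_le (le_max_left r 1)) (not_lt.2 hz)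

theorem integrable_K_indicator (j : Fin 2) (r : ℝ) : Integrable ((closedBall (0 : C2) r).indicator (K j)) := by
  rw [integrable_indicator_iff measurableSet_closedBall]
  exact (locallyIntegrable_K j).integrableOn_isCompact (isCompact_closedBall _ _)

/-- `∫ f (T_j g) = - ∫ (T_j f) g` -/
theorem integral_mul_T {j : Fin 2} {f g : C2 → ℂ} (hf : Continuous f) (hfc : HasCompactSupport f)
    (hg : Continuous g) (hgc : HasCompactSupport g) :
    ∫ y, f y * T j g y = - ∫ y, T j f y * g y := by
  obtain ⟨r, hr, hfr⟩ := exists_supp_ball hfc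
  obtain ⟨s, hs, hgs⟩ := exists_supp_ball hgc
  have hgi : Integrable g := hg.integrable_of_hasCompactSupport hgc
  have hint : Integrable (fun p : C2 × C2 => f p.1 * (K j (p.1 - p.2) * g p.2))
      (volume.prod volume) := by
    have h1 := hgi.convolution_integrand (ContinuousLinearMap.mul ℝ ℂ)
      (integrable_K_indicator j (r + s))
    obtain ⟨C, hC⟩ := hf.bounded_above_of_compact_support hfc
    have h2 := h1.bdd_mul (f := fun p : C2 × C2 => f p.1) (c := C)
      (hf.comp continuous_fst).aestronglyMeasurable (Eventually.of_forall fun p => hC p.1)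
    refine h2.congr (Eventually.of_forall fun p => ?_)
    simp only [ContinuousLinearMap.mul_apply']
    by_cases h3 : r ≤ ‖p.1‖
    · rw [hfr _ h3]; ring
    by_cases h4 : s ≤ ‖p.2‖
    · rw [hgs _ h4]; ring
    have h5 : p.1 - p.2 ∈ closedBall (0 : C2) (r + s) := by
      rw [mem_closedBall_zero_iff]
      refine (norm_sub_le _ _).trans ?_
      linarith [not_le.1 h3, not_le.1 h4]
    rw [indicator_of_mem h5]
    ring
  have h1 : ∀ y, f y * T j g y = ∫ z, f y * (K j (y - z) * g z) := by
    intro y
    rw [T_eq', ← integral_const_mul]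
    rfl
  have h2 : ∀ z, T j f z * g z = ∫ y, - (f y * (K j (y - z) * g z)) := by
    intro z
    rw [T_eq', ← integral_mul_const]
    refine integral_congr_ae (Eventually.of_forall fun y => ?_)
    show K j (z - y) * f y * g z = - (f y * (K j (y - z) * g z))
    rw [show z - y = -(y - z) by abel, K_neg]
    ring
  rw [integral_congr_ae (Eventually.of_forall h1), integral_congr_ae (Eventually.of_forall h2),
    integral_integral_swap hint]
  simp only [integral_neg, neg_neg]

/-- bound for `T j f` -/
theorem exists_T_bound (R : ℝ) : ∃ C : ℝ, 0 ≤ C ∧ ∀ (j : Fin 2) (f : C2 → ℂ) (B : ℝ),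
    Continuous f → (∀ z, R ≤ ‖z‖ → f z = 0) → (∀ z, ‖f z‖ ≤ B) → ∀ z ∈ closedBall (0 : C2) R,
    ‖T j f z‖ ≤ C * B := by
  refine ⟨∑ j, ∫ w in closedBall (0 : C2) (2 * R), ‖K j w‖,
    Finset.sum_nonneg fun j _ => by positivity, ?_⟩
  intro j f B hf hs hB z hz
  have hB0 : 0 ≤ B := (norm_nonneg _).trans (hB 0)
  have hi : Integrable fun w => ((closedBall (0 : C2) (2 * R)).indicator (fun w => ‖K j w‖) w) * B := by
    refine Integrable.mul_const ?_ _
    rw [integrable_indicator_iff measurableSet_closedBall]
    exact ((locallyIntegrable_K j).integrableOn_isCompact (isCompact_closedBall _ _)).norm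
  have h1 : ‖T j f z‖ ≤ ∫ w, ((closedBall (0 : C2) (2 * R)).indicator (fun w => ‖K j w‖) w) * B := by
    rw [T_apply]
    refine norm_integral_le_of_norm_le hi (Eventually.of_forall fun w => ?_)
    rw [norm_smul]
    by_cases hw : w ∈ closedBall (0 : C2) (2 * R)
    · rw [indicator_of_mem hw]
      gcongr
      exact hB _
    · have h2 : f (z - w) = 0 := by
        apply hs
        rw [mem_closedBall_zero_iff, not_le] at hw
        rw [mem_closedBall_zero_iff] at hz
        have := norm_sub_norm_le w z
        rw [norm_sub_rev] at this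
        linarith
      rw [h2, norm_zero, mul_zero, indicator_of_notMem hw, zero_mul]
  refine h1.trans ?_
  rw [integral_mul_const, integral_indicator measurableSet_closedBall]
  gcongr
  exact Finset.single_le_sum (f := fun j => ∫ w in closedBall (0 : C2) (2 * R), ‖K j w‖)
    (fun i _ => by positivity) (Finset.mem_univ j)

end dual

end Vale.Agent.P267.H869
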