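import Vale.Agent.P267.H869.Test

/-!
# P267 / XA-SMOOTH (helper869): functionals applied to the Bochner-Martinelli kernel

`Gk R ψ j z = (y ↦ K_j(y - z) • ψ y) ∈ C(closedBall 0 R, W)` for a smooth `ψ` vanishing on
`ball 0 R₁`, `z ∈ ball 0 R₁`.
-/

set_option linter.unusedVariables false
set_option linter.unusedSectionVars false

open MeasureTheory Set Filter Metric Topology
open scoped ContDiff

noncomputable section

namespace Vale.Agent.P267.H869

open Vale.Agent.P267.H667 Vale.Agent.P267.H439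

variable {W : Type} [NormedAddCommGroup W] [NormedSpace ℂ W]

/-- the family of continuous functions `y ↦ K_j(y - z) • ψ y` -/
def Gk (R : ℝ) (ψ : C2 → W) (j : Fin 2) (z : C2) : C(closedBall (0 : C2) R, W) :=
  toC fun y => K j (y - z) • ψ y

section

variable {R R₁ : ℝ} {ψ : C2 → W} (hψ : ContDiff ℝ ∞ ψ) (h0 : ∀ y ∈ ball (0 : C2) R₁, ψ y = 0)

include hψ h0

theorem kernel_contDiffAt (j : Fin 2) {y z : C2} (hz : z ∈ ball (0 : C2) R₁) :
    ContDiffAt ℝ ∞ (fun p : C2 × C2 => K j (p.1 - p.2) • ψ p.1) (y, z) := by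
  by_cases hyz : y - z = 0
  · have hy : y = z := sub_eq_zero.1 hyz
    subst hy
    have h1 : (fun p : C2 × C2 => K j (p.1 - p.2) • ψ p.1) =ᶠ[𝓝 (y, y)] fun _ => 0 := by
      have : {p : C2 × C2 | p.1 ∈ ball (0 : C2) R₁} ∈ 𝓝 (y, y) :=
        continuous_fst.continuousAt.preimage_mem_nhds (isOpen_ball.mem_nhds hz)
      filter_upwards [this] with p hp
      rw [h0 p.1 hp, smul_zero]
    exact contDiffAt_const.congr_of_eventuallyEq h1
  · have h1 : ContDiffAt ℝ ∞ (fun p : C2 × C2 => K j (p.1 - p.2)) (y, z) := by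
      refine ContDiffAt.comp (g := K j) (y, z) (contDiffAt_K hyz) ?_
      exact (contDiff_fst.sub contDiff_snd).contDiffAt
    exact h1.smul ((hψ.comp contDiff_fst).contDiffAt)

theorem joint_Gk (j : Fin 2) (y : closedBall (0 : C2) R) {z : C2} (hz : z ∈ ball (0 : C2) R₁) :
    JointAt C2 ∞ (fun (y : closedBall (0 : C2) R) (z : C2) => K j (y - z) • ψ y) y z :=
  ⟨univ, univ_mem, ball 0 R₁, isOpen_ball.mem_nhds hz, fun y => (y : C2),
    fun p => K j (p.1 - p.2) • ψ p.1, continuous_subtype_val.continuousOn,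
    fun _ _ _ hw => kernel_contDiffAt hψ h0 j hw, fun _ _ _ _ => rfl⟩

theorem Gk_apply (j : Fin 2) {z : C2} (hz : z ∈ ball (0 : C2) R₁) (y : closedBall (0 : C2) R) :
    Gk R ψ j z y = K j (y - z) • ψ y := by
  unfold Gk
  rw [toC_apply]
  rw [continuous_iff_continuousAt]
  intro y'
  have h1 := ((joint_Gk hψ h0 j y' hz).of_le (m := 0) (by simp)).continuousAt
  exact ContinuousAt.comp (f := fun y : closedBall (0 : C2) R => (y, z)) h1 (by fun_prop)

theorem contDiffOn_Gk (j : Fin 2) : ContDiffOn ℝ ∞ (Gk R ψ j) (ball 0 R₁) :=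
  contDiffOn_toC (E' := C2) isOpen_ball fun y _ hz => joint_Gk hψ h0 j y hz

theorem Gk_bound {R₀ : ℝ} (hR : R₀ < R₁) : ∃ C : ℝ, 0 ≤ C ∧ ∀ j, ∀ z ∈ closedBall (0 : C2) R₀,
    ‖Gk R ψ j z‖ ≤ C ∧ ‖fderiv ℝ (Gk R ψ j) z‖ ≤ C := by
  have hsub : closedBall (0 : C2) R₀ ⊆ ball 0 R₁ := closedBall_subset_ball hR
  have h1 : ∀ j, ∃ C : ℝ, ∀ z ∈ closedBall (0 : C2) R₀, ‖Gk R ψ j z‖ ≤ C := fun j =>
    (isCompact_closedBall (0 : C2) R₀).exists_bound_of_continuousOn
      ((contDiffOn_Gk hψ h0 j).continuousOn.mono hsub)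
  have h2 : ∀ j, ∃ C : ℝ, ∀ z ∈ closedBall (0 : C2) R₀, ‖fderiv ℝ (Gk R ψ j) z‖ ≤ C := fun j =>
    (isCompact_closedBall (0 : C2) R₀).exists_bound_of_continuousOn
      (((contDiffOn_Gk hψ h0 j).continuousOn_fderiv_of_isOpen isOpen_ball (by simp)).mono hsub)
  choose C1 hC1 using h1
  choose C2' hC2 using h2
  refine ⟨∑ j, (|C1 j| + |C2' j|), Finset.sum_nonneg fun j _ => by positivity, fun j z hz => ?_⟩
  have hle : |C1 j| + |C2' j| ≤ ∑ j, (|C1 j| + |C2' j|) :=
    Finset.single_le_sum (f := fun j => |C1 j| + |C2' j|) (fun i _ => by positivity)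
      (Finset.mem_univ j)
  constructor
  · exact (hC1 j z hz).trans ((le_abs_self _).trans (by linarith [abs_nonneg (C2' j)]))
  · exact (hC2 j z hz).trans ((le_abs_self _).trans (by linarith [abs_nonneg (C1 j)]))

theorem contDiffOn_Phi (Φ : C(closedBall (0 : C2) R, W) →L[ℂ] ℂ) (j : Fin 2) :
    ContDiffOn ℝ ∞ (fun z => Φ (Gk R ψ j z)) (ball 0 R₁) :=
  (Φ.restrictScalars ℝ).contDiff.comp_contDiffOn (contDiffOn_Gk hψ h0 j)

theorem Phi_bound {M C : ℝ} (Φ : C(closedBall (0 : C2) R, W) →L[ℂ] ℂ) (hΦ : ‖Φ‖ ≤ M)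
    (hM : 0 ≤ M) (j : Fin 2) {z : C2} (hz : z ∈ ball (0 : C2) R₁)
    (hC : ‖Gk R ψ j z‖ ≤ C ∧ ‖fderiv ℝ (Gk R ψ j) z‖ ≤ C) :
    ‖Φ (Gk R ψ j z)‖ ≤ M * C ∧ ‖fderiv ℝ (fun z => Φ (Gk R ψ j z)) z‖ ≤ M * C := by
  constructor
  · exact (Φ.le_opNorm _).trans (by gcongr; exact hC.1)
  · have hd : DifferentiableAt ℝ (Gk R ψ j) z :=
      ((contDiffOn_Gk hψ h0 j).differentiableOn (by simp)).differentiableAt
        (isOpen_ball.mem_nhds hz)
    have h1 : fderiv ℝ (fun z => Φ (Gk R ψ j z)) z =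
        (Φ.restrictScalars ℝ).comp (fderiv ℝ (Gk R ψ j) z) :=
      ((Φ.restrictScalars ℝ).hasFDerivAt.comp z hd.hasFDerivAt).fderiv
    rw [h1]
    refine (ContinuousLinearMap.opNorm_comp_le _ _).trans ?_
    have h2 : ‖Φ.restrictScalars ℝ‖ ≤ M := by
      rw [ContinuousLinearMap.norm_restrictScalars]; exact hΦ
    gcongr
    exact hC.2

/-- derivative and evaluation commute -/
theorem fderiv_Gk_apply (j : Fin 2) {z : C2} (hz : z ∈ ball (0 : C2) R₁)
    (y : closedBall (0 : C2) R) (v : C2) :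
    (fderiv ℝ (Gk R ψ j) z v) y = fderiv ℝ (fun z => K j (y - z) • ψ y) z v := by
  have hd : DifferentiableAt ℝ (Gk R ψ j) z :=
    ((contDiffOn_Gk hψ h0 j).differentiableOn (by simp)).differentiableAt
      (isOpen_ball.mem_nhds hz)
  let ev : C(closedBall (0 : C2) R, W) →L[ℝ] W := ContinuousMap.evalCLM ℝ y
  have h1 : HasFDerivAt (fun z => ev (Gk R ψ j z)) (ev.comp (fderiv ℝ (Gk R ψ j) z)) z :=
    ev.hasFDerivAt.comp z hd.hasFDerivAt
  have h2 : (fun z => ev (Gk R ψ j z)) =ᶠ[𝓝 z] fun z => K j (y - z) • ψ y := by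
    filter_upwards [isOpen_ball.mem_nhds hz] with w hw
    exact Gk_apply hψ h0 j hw y
  have h3 := (h1.congr_of_eventuallyEq h2.symm).fderiv
  rw [h3]
  rfl

/-- the kernel is divergence free away from the diagonal -/
theorem sum_db_Gk {z : C2} (hz : z ∈ ball (0 : C2) R₁) : ∑ j, db j (Gk R ψ j) z = 0 := by
  ext y
  rw [ContinuousMap.coe_sum, Finset.sum_apply]
  have h1 : ∀ j, (db j (Gk R ψ j) z) y = db j (fun z => K j (y - z) • ψ y) z := by
    intro j
    rw [db_eq, db_eq, ContinuousMap.smul_apply, ContinuousMap.add_apply, ContinuousMap.smul_apply,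
      fderiv_Gk_apply hψ h0 j hz, fderiv_Gk_apply hψ h0 j hz]
  simp only [h1, ContinuousMap.zero_apply]
  by_cases hyz : (y : C2) - z = 0
  · have hy : (y : C2) = z := sub_eq_zero.1 hyz
    have : ψ y = 0 := h0 _ (hy ▸ hz)
    simp only [this, smul_zero]
    simp [db_eq]
  · have h2 : ∀ j, db j (fun z => K j (y - z) • ψ y) z = -(db j (K j) (y - z)) • ψ y := by
      intro j
      have hK : DifferentiableAt ℝ (K j) (y - z) :=
        (contDiffAt_K (n := 1) hyz).differentiableAt (by simp)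
      have hs : HasFDerivAt (fun z : C2 => (y : C2) - z) (-(ContinuousLinearMap.id ℝ C2)) z := by
        simpa using (hasFDerivAt_id (𝕜 := ℝ) z).const_sub (y : C2)
      have hc := (hK.hasFDerivAt.comp z hs)
      have hf : HasFDerivAt (fun z => K j (y - z) • ψ y)
          (((fderiv ℝ (K j) (y - z)).comp (-(ContinuousLinearMap.id ℝ C2))).smulRight (ψ y)) z := by
        have := hc.smul_const (ψ y)
        exact this
      rw [db_eq, db_eq, hf.fderiv]
      simp only [ContinuousLinearMap.smulRight_apply, ContinuousLinearMap.comp_apply,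
        _root_.neg_apply, ContinuousLinearMap.id_apply, map_neg]
      rw [← Complex.coe_smul, ← Complex.coe_smul]
      simp only [smul_smul, ← add_smul, smul_eq_mul]
      congr 1
      ring
    simp only [h2, ← Finset.sum_smul, Finset.sum_neg_distrib]
    have h3 : ∑ j, db j (K j) (y - z) = 0 := by
      have h4 : H667.sq ((y : C2) - z) + (0 : ℝ) ^ 2 ≠ 0 := by
        have := sq_pos hyz
        simpa using this.ne'
      have h5 := sum_db_Ke h4
      have h6 : ∀ j, db j (K j) (y - z) = (cst : ℂ) • db j (Ke 0 j) (y - z) := by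
        intro j
        have hd : DifferentiableAt ℝ (Ke 0 j) ((y : C2) - z) :=
          (contDiffAt_Ke (n := 1) h4).differentiableAt (by simp)
        have h7 : K j = fun w => (cst : ℂ) • Ke 0 j w := rfl
        rw [h7, db_smul (a := fun _ => (cst : ℂ)) (differentiableAt_const _) hd]
        simp [db_eq]
      simp only [h6, ← Finset.smul_sum, h5]
      simp [rhoe]
    rw [h3, neg_zero, zero_smul]

theorem sum_db_Phi (Φ : C(closedBall (0 : C2) R, W) →L[ℂ] ℂ) {z : C2}
    (hz : z ∈ ball (0 : C2) R₁) : ∑ j, db j (fun z => Φ (Gk R ψ j z)) z = 0 := by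
  have h1 : ∀ j, db j (fun z => Φ (Gk R ψ j z)) z = Φ (db j (Gk R ψ j) z) := by
    intro j
    have hd : DifferentiableAt ℝ (Gk R ψ j) z :=
      ((contDiffOn_Gk hψ h0 j).differentiableOn (by simp)).differentiableAt
        (isOpen_ball.mem_nhds hz)
    have h1 : fderiv ℝ (fun z => Φ (Gk R ψ j z)) z =
        (Φ.restrictScalars ℝ).comp (fderiv ℝ (Gk R ψ j) z) :=
      ((Φ.restrictScalars ℝ).hasFDerivAt.comp z hd.hasFDerivAt).fderiv
    rw [db_eq, db_eq, h1]
    simp only [ContinuousLinearMap.comp_apply, ContinuousLinearMap.coe_restrictScalars']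
    rw [← Complex.coe_smul, ← Complex.coe_smul, map_smul, map_add, map_smul]
  simp only [h1, ← map_sum, sum_db_Gk hψ h0 hz, map_zero]

end

end Vale.Agent.P267.H869
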