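import Vale.Agent.P267.H399.Calc

/-!
# P267 / H869: the calculus of `H399/Calc.lean` in charts of the maximal atlas

`maxCS X` is the charted space structure with the same preferred charts whose atlas is the maximal
holomorphic atlas; `loc0`, `dbar0`, ... do not change, so all theorems of `Calc` hold for
holomorphic charts `e ∈ maximalAtlas`.
-/

set_option linter.unusedVariables false
set_option linter.unusedSectionVars false

open scoped Manifold ContDiff ComplexConjugate Matrix ComplexOrder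
open MeasureTheory Set Filter Topology

noncomputable section

namespace Vale.Agent.P267.H869

open FL

/-- the maximal holomorphic atlas -/
abbrev mAt (X : Type*) [TopologicalSpace X] [ChartedSpace C2 X] : Set (Ch X) :=
  IsManifold.maximalAtlas 𝓘(ℂ, C2) ω X

section

variable (X : Type*) [TopologicalSpace X] [ChartedSpace C2 X] [IsManifold 𝓘(ℂ, C2) ω X]

/-- the same preferred charts, maximal atlas -/
@[reducible] def maxCS : ChartedSpace C2 X where
  atlas := mAt X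
  chartAt := chartAt C2
  mem_chart_source := mem_chart_source C2
  chart_mem_atlas x := IsManifold.chart_mem_maximalAtlas x

theorem maxM : @IsManifold ℂ _ C2 _ _ C2 _ 𝓘(ℂ, C2) ω X _ (maxCS X) :=
  @IsManifold.mk ℂ _ C2 _ _ C2 _ 𝓘(ℂ, C2) ω X _ (maxCS X)
    (@HasGroupoid.mk C2 _ X _ (maxCS X) _ fun he he' =>
      IsManifold.compatible_of_mem_maximalAtlas he he')

end

variable {X : Type*} [TopologicalSpace X] [ChartedSpace C2 X] [IsManifold 𝓘(ℂ, C2) ω X]
variable {V : Type*} [NormedAddCommGroup V] [NormedSpace ℂ V]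

theorem atlas_subset_mAt {e : Ch X} (he : e ∈ atlas C2 X) : e ∈ mAt X :=
  IsManifold.subset_maximalAtlas he

theorem max_trans_analyticAt {e e' : Ch X} (he : e ∈ mAt X) (he' : e' ∈ mAt X) {x : X}
    (hx : x ∈ e.source) (hx' : x ∈ e'.source) : AnalyticAt ℂ (fun z => e' (e.symm z)) (e x) :=
  @trans_analyticAt X _ (maxCS X) (maxM X) e e' he he' x hx hx'

theorem max_jacM_comp {e e' e'' : Ch X} (he : e ∈ mAt X) (he' : e' ∈ mAt X) (he'' : e'' ∈ mAt X)
    {x : X} (hx : x ∈ e.source) (hx' : x ∈ e'.source) (hx'' : x ∈ e''.source) :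
    jacM e e'' x = jacM e' e'' x * jacM e e' x :=
  @jacM_comp X _ (maxCS X) (maxM X) e e' e'' he he' he'' x hx hx' hx''

theorem max_jacM_det_ne_zero {e e' : Ch X} (he : e ∈ mAt X) (he' : e' ∈ mAt X) {x : X}
    (hx : x ∈ e.source) (hx' : x ∈ e'.source) : (jacM e e' x).det ≠ 0 :=
  @jacM_det_ne_zero X _ (maxCS X) (maxM X) e e' he he' x hx hx'

theorem max_jac_det_ne_zero {e : Ch X} (he : e ∈ mAt X) {x : X} (hx : x ∈ e.source) :
    (jac e x).det ≠ 0 :=
  @jac_det_ne_zero X _ (maxCS X) (maxM X) e he x hx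

theorem max_jac_eq {e e' : Ch X} (he : e ∈ mAt X) (he' : e' ∈ mAt X) {x : X}
    (hx : x ∈ e.source) (hx' : x ∈ e'.source) : jac e x = jac e' x * jacM e e' x :=
  @jac_eq X _ (maxCS X) (maxM X) e e' he he' x hx hx'

theorem max_jacM_analyticAt {e e' : Ch X} (he : e ∈ mAt X) (he' : e' ∈ mAt X) {x : X}
    (hx : x ∈ e.source) (hx' : x ∈ e'.source) (p i : Fin 2) :
    AnalyticAt ℂ (fun z => jacM e e' (e.symm z) p i) (e x) :=
  @jacM_analyticAt X _ (maxCS X) (maxM X) e e' he he' x hx hx' p i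

theorem max_jacM_mulVec {e e' : Ch X} (he : e ∈ mAt X) (he' : e' ∈ mAt X) {x : X}
    (hx : x ∈ e.source) (hx' : x ∈ e'.source) (v : C2) :
    (jacM e e' x).mulVec v = fderiv ℂ (fun z => e' (e.symm z)) (e x) v :=
  @jacM_mulVec X _ (maxCS X) (maxM X) e e' he he' x hx hx' v

theorem max_loc0_change {κ : ℤ} {e e' : Ch X} (he : e ∈ mAt X) (he' : e' ∈ mAt X) {x : X}
    (hx : x ∈ e.source) (hx' : x ∈ e'.source) (s : X → V) :
    loc0 κ e s (e x) = (jacM e e' x).det ^ κ • loc0 κ e' s (e' x) :=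
  @loc0_change X _ (maxCS X) V _ _ (maxM X) κ e e' he he' x hx hx' s

theorem max_loc1_change {κ : ℤ} {e e' : Ch X} (he : e ∈ mAt X) (he' : e' ∈ mAt X) {x : X}
    (hx : x ∈ e.source) (hx' : x ∈ e'.source) (a : X → Fin 2 → V) (i : Fin 2) :
    loc1 κ e a (e x) i =
      (jacM e e' x).det ^ κ • ∑ p, conj (jacM e e' x p i) • loc1 κ e' a (e' x) p :=
  @loc1_change X _ (maxCS X) V _ _ (maxM X) κ e e' he he' x hx hx' a i

theorem max_loc2_change {κ : ℤ} {e e' : Ch X} (he : e ∈ mAt X) (he' : e' ∈ mAt X) {x : X}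
    (hx : x ∈ e.source) (hx' : x ∈ e'.source) (b : X → V) :
    loc2 κ e b (e x) =
      (jacM e e' x).det ^ κ • conj (jacM e e' x).det • loc2 κ e' b (e' x) :=
  @loc2_change X _ (maxCS X) V _ _ (maxM X) κ e e' he he' x hx hx' b

theorem reg0_max {n : WithTop ℕ∞} {κ : ℤ} {s : X → V} (h : Reg0 n κ s) :
    @Reg0 X _ (maxCS X) V _ _ n κ s := by
  have h1 := reg0_iff.1 h
  exact (@reg0_iff X _ (maxCS X) V _ _ (maxM X) n κ s).2 h1

theorem reg1_max {n : WithTop ℕ∞} {κ : ℤ} {s : X → Fin 2 → V} (h : Reg1 n κ s) :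
    @Reg1 X _ (maxCS X) V _ _ n κ s := by
  have h1 := reg1_iff.1 h
  exact (@reg1_iff X _ (maxCS X) V _ _ (maxM X) n κ s).2 h1

theorem reg2_max {n : WithTop ℕ∞} {κ : ℤ} {s : X → V} (h : Reg2 n κ s) :
    @Reg2 X _ (maxCS X) V _ _ n κ s := by
  have h1 := reg2_iff.1 h
  exact (@reg2_iff X _ (maxCS X) V _ _ (maxM X) n κ s).2 h1

theorem Reg0.contDiffAt_max {n : WithTop ℕ∞} {κ : ℤ} {s : X → V} (h : Reg0 n κ s) {e : Ch X}
    (he : e ∈ mAt X) {z : C2} (hz : z ∈ e.target) : ContDiffAt ℝ n (loc0 κ e s) z :=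
  (reg0_max h e he).contDiffAt (e.open_target.mem_nhds hz)

theorem Reg1.contDiffAt_max {n : WithTop ℕ∞} {κ : ℤ} {s : X → Fin 2 → V} (h : Reg1 n κ s)
    {e : Ch X} (he : e ∈ mAt X) {z : C2} (hz : z ∈ e.target) : ContDiffAt ℝ n (loc1 κ e s) z :=
  (reg1_max h e he).contDiffAt (e.open_target.mem_nhds hz)

theorem Reg2.contDiffAt_max {n : WithTop ℕ∞} {κ : ℤ} {s : X → V} (h : Reg2 n κ s) {e : Ch X}
    (he : e ∈ mAt X) {z : C2} (hz : z ∈ e.target) : ContDiffAt ℝ n (loc2 κ e s) z :=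
  (reg2_max h e he).contDiffAt (e.open_target.mem_nhds hz)

theorem Reg0.contDiffOn_max {n : WithTop ℕ∞} {κ : ℤ} {s : X → V} (h : Reg0 n κ s) {e : Ch X}
    (he : e ∈ mAt X) : ContDiffOn ℝ n (loc0 κ e s) e.target := reg0_max h e he

theorem Reg1.contDiffOn_max {n : WithTop ℕ∞} {κ : ℤ} {s : X → Fin 2 → V} (h : Reg1 n κ s)
    {e : Ch X} (he : e ∈ mAt X) : ContDiffOn ℝ n (loc1 κ e s) e.target := reg1_max h e he

theorem Reg2.contDiffOn_max {n : WithTop ℕ∞} {κ : ℤ} {s : X → V} (h : Reg2 n κ s) {e : Ch X}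
    (he : e ∈ mAt X) : ContDiffOn ℝ n (loc2 κ e s) e.target := reg2_max h e he

/-- regularity may be tested in any holomorphic charts -/
theorem reg0_of_max {n : WithTop ℕ∞} {κ : ℤ} {s : X → V}
    (h : ∀ x, ∃ e ∈ mAt X, x ∈ e.source ∧ ContDiffAt ℝ n (loc0 κ e s) (e x)) : Reg0 n κ s := by
  rw [reg0_iff]
  intro x
  obtain ⟨e, he, hx, hs⟩ := h x
  exact @loc0_contDiffAt_change X _ (maxCS X) V _ _ (maxM X) n κ (chartAt C2 x) e
    (atlas_subset_mAt (chart_mem_atlas C2 x)) he x (mem_chart_source C2 x) hx s hs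

theorem reg1_of_max {n : WithTop ℕ∞} {κ : ℤ} {s : X → Fin 2 → V}
    (h : ∀ x, ∃ e ∈ mAt X, x ∈ e.source ∧ ContDiffAt ℝ n (loc1 κ e s) (e x)) : Reg1 n κ s := by
  rw [reg1_iff]
  intro x
  obtain ⟨e, he, hx, hs⟩ := h x
  exact @loc1_contDiffAt_change X _ (maxCS X) V _ _ (maxM X) n κ (chartAt C2 x) e
    (atlas_subset_mAt (chart_mem_atlas C2 x)) he x (mem_chart_source C2 x) hx s hs

theorem reg2_of_max {n : WithTop ℕ∞} {κ : ℤ} {s : X → V}
    (h : ∀ x, ∃ e ∈ mAt X, x ∈ e.source ∧ ContDiffAt ℝ n (loc2 κ e s) (e x)) : Reg2 n κ s := by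
  rw [reg2_iff]
  intro x
  obtain ⟨e, he, hx, hs⟩ := h x
  exact @loc2_contDiffAt_change X _ (maxCS X) V _ _ (maxM X) n κ (chartAt C2 x) e
    (atlas_subset_mAt (chart_mem_atlas C2 x)) he x (mem_chart_source C2 x) hx s hs

/-- `∂̄` in degree `0`, in a holomorphic chart -/
theorem max_loc1_dbar0 {κ : ℤ} {e : Ch X} (he : e ∈ mAt X) {z : C2} (hz : z ∈ e.target)
    {s : X → V} (h : DifferentiableAt ℝ (loc0 κ e s) z) (i : Fin 2) :
    loc1 κ e (dbar0 κ s) z i = dzb i (loc0 κ e s) z :=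
  @loc1_dbar0 X _ (maxCS X) V _ _ (maxM X) κ e he z hz s h i

/-- `∂̄` in degree `1`, in a holomorphic chart -/
theorem max_loc2_dbar1 {κ : ℤ} {e : Ch X} (he : e ∈ mAt X) {z : C2} (hz : z ∈ e.target)
    {a : X → Fin 2 → V} (h : DifferentiableAt ℝ (loc1 κ e a) z) :
    loc2 κ e (dbar1 κ a) z = dzb 0 (fun y => loc1 κ e a y 1) z -
      dzb 1 (fun y => loc1 κ e a y 0) z :=
  @loc2_dbar1 X _ (maxCS X) V _ _ (maxM X) κ e he z hz a h

end Vale.Agent.P267.H869
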