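import Vale.Agent.P267.H869.S1

/-!
# P267 / XA-SMOOTH (helper869): the local smoothing lemma in degree zero (Weyl lemma for `∂̄`)

`V` functional of order zero on test functions on `ball z₀ δ`, `V (∂̄ η) = ∫ β ∧ η` with `β` smooth.
Then `V g = ∫ v g` on `ball z₀ (δ/2)` with `v` smooth, `∂̄ v = -β`, with explicit bounds.
-/

set_option linter.unusedVariables false
set_option linter.unusedSectionVars false

open MeasureTheory Set Filter Metric Topology
open scoped ContDiff

noncomputable section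

namespace Vale.Agent.P267.H869

open Vale.Agent.P267.H667 Vale.Agent.P267.H439

/-! ### elementary lemmas -/

theorem integral_db_eq_zero {f : C2 → ℂ} (hf : ContDiff ℝ 1 f) (hc : HasCompactSupport f)
    (j : Fin 2) : ∫ z, db j f z = 0 := by
  have h := integral_smul_db (j := j) (φ := fun _ => (1 : ℂ)) contDiff_const hf hc
  have h1 : ∀ w, db j (fun _ : C2 => (1 : ℂ)) w = 0 := fun w => by simp [db_eq]
  simpa [h1] using h

/-- integration by parts against a test function -/
theorem integral_mul_db {Ω : Set C2} (hΩ : IsOpen Ω) {v φ : C2 → ℂ} (hv : ContDiffOn ℝ ∞ v Ω)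
    (hφ : Test Ω φ) (j : Fin 2) : ∫ z, v z * db j φ z = -∫ z, db j v z * φ z := by
  have h1 : Test Ω fun z => φ z * v z := hφ.mul_contDiffOn hΩ hv
  have h2 := integral_db_eq_zero (h1.smooth.of_le (by simp)) h1.cpt j
  have h3 : ∀ z, db j (fun z => φ z * v z) z = v z * db j φ z + db j v z * φ z := by
    intro z
    by_cases hz : z ∈ Ω
    · have hd : DifferentiableAt ℝ v z :=
        (hv.differentiableOn (by simp)).differentiableAt (hΩ.mem_nhds hz)
      have := db_smul (j := j) (hφ.smooth.differentiable (by simp) z) hd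
      simp only [smul_eq_mul] at this
      rw [this]; ring
    · have e1 : z ∉ tsupport (db j (fun z => φ z * v z)) := fun h =>
        hz (h1.supp (tsupport_db_subset j _ h))
      have e2 : z ∉ tsupport (db j φ) := fun h => hz (hφ.supp (tsupport_db_subset j _ h))
      rw [image_eq_zero_of_notMem_tsupport e1, image_eq_zero_of_notMem_tsupport e2,
        hφ.eq_zero hz, mul_zero, mul_zero, add_zero]
  have i1 : Integrable fun z => v z * db j φ z := by
    have : Test Ω fun z => db j φ z * v z := (hφ.db j).mul_contDiffOn hΩ hv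
    refine this.integrable.congr (Eventually.of_forall fun z => ?_)
    show db j φ z * v z = v z * db j φ z
    ring
  have i2 : Integrable fun z => db j v z * φ z := by
    have hdv : ContDiffOn ℝ ∞ (db j v) Ω :=
      (dbLL (F := ℂ) j).contDiff.comp_contDiffOn (hv.fderiv_of_isOpen hΩ (by simp))
    have : Test Ω fun z => φ z * db j v z := hφ.mul_contDiffOn hΩ hdv
    refine this.integrable.congr (Eventually.of_forall fun z => ?_)
    show φ z * db j v z = db j v z * φ z
    ring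
  rw [integral_congr_ae (Eventually.of_forall h3), integral_add i1 i2] at h2
  linear_combination h2

/-- fundamental lemma of the calculus of variations -/
theorem eq_zero_of_test {Ω : Set C2} (hΩ : IsOpen Ω) {h : C2 → ℂ} (hc : ContinuousOn h Ω)
    (h0 : ∀ φ, Test Ω φ → ∫ z, h z * φ z = 0) : ∀ z ∈ Ω, h z = 0 := by
  have h1 : ∀ᵐ z ∂(volume : Measure C2), z ∈ Ω → h z = 0 := by
    refine hΩ.ae_eq_zero_of_integral_contDiff_smul_eq_zero
      (hc.locallyIntegrableOn hΩ.measurableSet) ?_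
    intro g hg hgc hgs
    have ht : Test Ω (fun z => ((g z : ℝ) : ℂ)) := by
      have e1 : tsupport (fun z => ((g z : ℝ) : ℂ)) ⊆ tsupport g :=
        closure_mono fun z hz h => hz (by simp [h])
      exact ⟨Complex.ofRealCLM.contDiff.comp hg, hgc.comp_left (g := fun t : ℝ => (t : ℂ)) (by simp),
        e1.trans hgs⟩
    have := h0 _ ht
    rw [← this]
    refine integral_congr_ae (Eventually.of_forall fun z => ?_)
    show g z • h z = h z * ((g z : ℝ) : ℂ)
    rw [Complex.real_smul, mul_comm]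
  have h2 : h =ᵐ[volume.restrict Ω] fun _ => 0 := by
    rw [Filter.EventuallyEq, ae_restrict_iff' hΩ.measurableSet]
    exact h1
  exact fun z hz => Measure.eqOn_open_of_ae_eq h2 hΩ hc continuousOn_const hz

/-- uniqueness of the smooth representative -/
theorem eqOn_of_test {Ω : Set C2} (hΩ : IsOpen Ω) {u v : C2 → ℂ} (hu : ContinuousOn u Ω)
    (hv : ContinuousOn v Ω) (h0 : ∀ φ, Test Ω φ → ∫ z, u z * φ z = ∫ z, v z * φ z) :
    ∀ z ∈ Ω, u z = v z := by
  have key : ∀ w : C2 → ℂ, ContinuousOn w Ω → ∀ φ, Test Ω φ → Integrable fun z => w z * φ z := by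
    intro w hw φ hφ
    have hc : Continuous fun z => w z * φ z := by
      refine continuous_of_tsupport fun z hz => ?_
      have hz' : z ∈ Ω := hφ.supp (tsupport_smul_subset_right w φ hz)
      exact (hw.continuousAt (hΩ.mem_nhds hz')).mul hφ.continuous.continuousAt
    exact hc.integrable_of_hasCompactSupport (hφ.cpt.smul_left (f := w))
  intro z hz
  have := eq_zero_of_test hΩ (h := fun z => u z - v z) (hu.sub hv) (fun φ hφ => by
    have h1 : ∀ z, (u z - v z) * φ z = u z * φ z - v z * φ z := fun z => by ring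
    rw [integral_congr_ae (Eventually.of_forall h1), integral_sub (key u hu φ hφ) (key v hv φ hφ),
      h0 φ hφ, sub_self]) z hz
  exact sub_eq_zero.1 this

/-- bounds for `T_j (χ r)` -/
theorem exists_Tcut_bound {R : ℝ} (hR : 0 < R) {χ : C2 → ℂ} (hχ : Test (ball 0 R) χ)
    (hχ1 : ∀ z, ‖χ z‖ ≤ 1) : ∃ C : ℝ, 0 ≤ C ∧ ∀ (j : Fin 2) (r : C2 → ℂ),
    ContDiffOn ℝ ∞ r (ball 0 R) →
    (∀ B₀, (∀ z ∈ ball (0 : C2) R, ‖r z‖ ≤ B₀) → ∀ z ∈ closedBall (0 : C2) R,
      ‖T j (fun z => χ z * r z) z‖ ≤ C * B₀) ∧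
    (∀ B₀ B₁, (∀ z ∈ ball (0 : C2) R, ‖r z‖ ≤ B₀) → (∀ z ∈ ball (0 : C2) R, ‖fderiv ℝ r z‖ ≤ B₁) →
      ∀ z ∈ closedBall (0 : C2) R, ‖fderiv ℝ (T j (fun z => χ z * r z)) z‖ ≤ C * (B₀ + B₁)) := by
  obtain ⟨CT, hCT0, hCT⟩ := exists_T_bound R
  obtain ⟨CD, hCD⟩ := (hχ.smooth.continuous_fderiv (by simp)).bounded_above_of_compact_support
    (hχ.cpt.fderiv (𝕜 := ℝ))
  have hCD0 : 0 ≤ CD := (norm_nonneg _).trans (hCD 0)
  refine ⟨CT * (1 + CD), by positivity, fun j r hr => ?_⟩
  have hrt : Test (ball 0 R) (fun z => χ z * r z) := Test.mul_contDiffOn isOpen_ball hχ hr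
  constructor
  · intro B₀ hB₀ z hz
    have hB00 : 0 ≤ B₀ := (norm_nonneg _).trans (hB₀ 0 (by simp [hR]))
    have hrtB : ∀ z, ‖χ z * r z‖ ≤ B₀ := by
      intro w
      by_cases hw : w ∈ ball (0 : C2) R
      · rw [norm_mul]
        calc ‖χ w‖ * ‖r w‖ ≤ 1 * B₀ := by
              gcongr
              · exact hχ1 w
              · exact hB₀ w hw
          _ = B₀ := one_mul _
      · have := hrt.eq_zero hw
        rw [this, norm_zero]; exact hB00
    have hrt0 : ∀ z, R ≤ ‖z‖ → χ z * r z = 0 := fun w hw =>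
      hrt.eq_zero (by rw [mem_ball_zero_iff, not_lt]; exact hw)
    refine (hCT j _ B₀ hrt.continuous hrt0 hrtB z hz).trans ?_
    have : 0 ≤ CT * CD * B₀ := by positivity
    nlinarith
  · intro B₀ B₁ hB₀ hB₁ z hz
    have hB00 : 0 ≤ B₀ := (norm_nonneg _).trans (hB₀ 0 (by simp [hR]))
    have hB10 : 0 ≤ B₁ := (norm_nonneg _).trans (hB₁ 0 (by simp [hR]))
    refine ContinuousLinearMap.opNorm_le_bound _ (by positivity) fun v => ?_
    rw [fderiv_T (hrt.smooth.of_le (by simp)) hrt.cpt]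
    have h1 : ∀ w, ‖fderiv ℝ (fun z => χ z * r z) w v‖ ≤ (1 + CD) * (B₀ + B₁) * ‖v‖ := by
      intro w
      by_cases hw : w ∈ ball (0 : C2) R
      · have h2 : fderiv ℝ (fun z => χ z * r z) w =
            χ w • fderiv ℝ r w + (fderiv ℝ χ w).smulRight (r w) :=
          fderiv_fun_smul (hχ.smooth.differentiable (by simp) w)
            ((hr.differentiableOn (by simp)).differentiableAt (isOpen_ball.mem_nhds hw))
        refine (ContinuousLinearMap.le_opNorm _ _).trans ?_
        gcongr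
        rw [h2]
        refine (norm_add_le _ _).trans ?_
        have e0 : ‖(fderiv ℝ χ w).smulRight (r w)‖ ≤ ‖fderiv ℝ χ w‖ * ‖r w‖ := by
          refine ContinuousLinearMap.opNorm_le_bound _ (by positivity) fun u => ?_
          rw [ContinuousLinearMap.smulRight_apply, norm_smul]
          calc ‖fderiv ℝ χ w u‖ * ‖r w‖ ≤ (‖fderiv ℝ χ w‖ * ‖u‖) * ‖r w‖ := by
                gcongr
                exact ContinuousLinearMap.le_opNorm _ _
            _ = _ := by ring
        rw [norm_smul]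
        have e1 : ‖χ w‖ * ‖fderiv ℝ r w‖ ≤ 1 * B₁ := by
          gcongr
          · exact hχ1 w
          · exact hB₁ w hw
        have e2 : ‖fderiv ℝ χ w‖ * ‖r w‖ ≤ CD * B₀ := by
          gcongr
          · exact hCD w
          · exact hB₀ w hw
        have e3 : 0 ≤ CD * B₁ + B₀ := by positivity
        linarith
      · have h2 : fderiv ℝ (fun z => χ z * r z) w = 0 := by
          have : w ∉ tsupport (fderiv ℝ (fun z => χ z * r z)) := fun h =>
            hw (hrt.supp (tsupport_fderiv_subset ℝ h))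
          exact image_eq_zero_of_notMem_tsupport this
        rw [h2]
        simp only [_root_.zero_apply, norm_zero]
        positivity
    have h0 : ∀ w, R ≤ ‖w‖ → fderiv ℝ (fun z => χ z * r z) w v = 0 := by
      intro w hw
      have : w ∉ tsupport (fderiv ℝ (fun z => χ z * r z)) := fun h => by
        have := hrt.supp (tsupport_fderiv_subset ℝ h)
        rw [mem_ball_zero_iff] at this
        linarith
      rw [image_eq_zero_of_notMem_tsupport this]
      rfl
    have h4 := hCT j (fun w => fderiv ℝ (fun z => χ z * r z) w v) _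
      ((hrt.smooth.continuous_fderiv (by simp)).clm_apply continuous_const) h0 h1 z hz
    refine h4.trans (le_of_eq ?_)
    ring

/-! ### the lemma at the origin -/

theorem exists_weyl_zero {δ : ℝ} (hδ : 0 < δ) : ∃ C : ℝ, 0 ≤ C ∧
    ∀ (V : (C2 → ℂ) → ℂ) (M : ℝ) (β : C2 → Fin 2 → ℂ),
    LF ℂ (ball 0 δ) M V → 0 ≤ M → ContDiffOn ℝ ∞ β (ball 0 δ) →
    (∀ η, Test (ball 0 δ) η → V (dbF η) = ∫ z, (β z 0 * η z 1 - β z 1 * η z 0)) →
    ∃ v : C2 → ℂ, ContDiffOn ℝ ∞ v (ball 0 (δ / 2)) ∧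
      (∀ g, Test (ball 0 (δ / 2)) g → V g = ∫ z, v z * g z) ∧
      (∀ B₀, (∀ z ∈ ball (0 : C2) δ, ‖β z‖ ≤ B₀) → ∀ z ∈ closedBall (0 : C2) (δ / 4),
        ‖v z‖ ≤ C * (M + B₀)) ∧
      (∀ B₀ B₁, (∀ z ∈ ball (0 : C2) δ, ‖β z‖ ≤ B₀) → (∀ z ∈ ball (0 : C2) δ, ‖fderiv ℝ β z‖ ≤ B₁) →
        ∀ z ∈ closedBall (0 : C2) (δ / 4), ‖fderiv ℝ v z‖ ≤ C * (M + B₀ + B₁)) := by
  obtain ⟨χ, hχ, hχ1, hχn, hχd⟩ := exists_cutoff (R₁ := δ / 2) (R := δ) (by linarith) (by linarith)
  obtain ⟨CT, hCT0, hCT⟩ := exists_Tcut_bound hδ hχ hχn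
  have hψs : ∀ j, ContDiff ℝ ∞ (db j χ) := fun j => (hχ.db j).smooth
  have hψ0 : ∀ j, ∀ y ∈ ball (0 : C2) (δ / 2), db j χ y = 0 := hχd
  have hG := fun j => Gk_bound (R := δ) (hψs j) (hψ0 j) (R₀ := δ / 4) (by linarith)
  choose CG hCG0 hCG using hG
  refine ⟨2 * CT + (CG 0 + CG 1), by
    have := hCG0 0; have := hCG0 1; positivity, ?_⟩
  intro V M β hV hM hβ hVβ
  obtain ⟨Ψ, hΨM, hΨ⟩ := hV.exists_extension hM (c := 0) (R := δ) ball_subset_closedBall
  have hβj : ∀ j, ContDiffOn ℝ ∞ (fun z => β z j) (ball 0 δ) := fun j => contDiffOn_pi.1 hβ j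
  let bt : Fin 2 → C2 → ℂ := fun j z => χ z * β z j
  have hbt : ∀ j, Test (ball 0 δ) (bt j) := fun j => Test.mul_contDiffOn isOpen_ball hχ (hβj j)
  have hTb : ∀ j, ContDiff ℝ ∞ (T j (bt j)) := fun j =>
    contDiff_T (n := ⊤) (hbt j).smooth (hbt j).cpt
  let k : Fin 2 → C2 → ℂ := fun j z => Ψ (Gk δ (db j χ) j z)
  have hk : ∀ j, ContDiffOn ℝ ∞ (k j) (ball 0 (δ / 2)) := fun j => contDiffOn_Phi (hψs j) (hψ0 j) Ψ j
  let v : C2 → ℂ := fun z => -(T 0 (bt 0) z + T 1 (bt 1) z) - (k 0 z + k 1 z)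
  have hv : ContDiffOn ℝ ∞ v (ball 0 (δ / 2)) :=
    ((((hTb 0).add (hTb 1)).neg).contDiffOn).sub ((hk 0).add (hk 1))
  refine ⟨v, hv, ?_, ?_, ?_⟩
  · intro g hg
    have hgs : ContDiff ℝ 1 g := hg.smooth.of_le (by simp)
    have hTg : ∀ j, ContDiff ℝ ∞ (T j g) := fun j => contDiff_T (n := ⊤) hg.smooth hg.cpt
    have hη : Test (ball 0 δ) (fun z => χ z • T2 g z) := hχ.smul_right (contDiff_T2 hg.smooth hg.cpt)
    have ht : ∀ j, Test (ball 0 δ) fun z => T j g z • db j χ z := fun j =>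
      (hχ.db j).smul_left (hTg j)
    have hη0 : ∀ z, (χ z • T2 g z) 0 = -(χ z * T 1 g z) := fun z => by
      show χ z * -(T 1 g z) = _
      ring
    have hη1 : ∀ z, (χ z • T2 g z) 1 = χ z * T 0 g z := fun z => rfl
    -- decomposition
    have h1 : g = fun z => dbF (fun z => χ z • T2 g z) z -
        (T 0 g z • db 0 χ z + T 1 g z • db 1 χ z) := by
      funext z
      have e1 := sum_db_T hgs hg.cpt z
      rw [Fin.sum_univ_two] at e1
      have e2 : ∀ j, db j (fun z => χ z * T j g z) z = χ z * db j (T j g) z + db j χ z * T j g z := by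
        intro j
        have := db_smul (j := j) (a := χ) (f := T j g) (hχ.smooth.differentiable (by simp) z)
          ((hTg j).differentiable (by simp) z)
        simpa only [smul_eq_mul] using this
      have e3 : dbF (fun z => χ z • T2 g z) z =
          db 0 (fun z => χ z * T 0 g z) z + db 1 (fun z => χ z * T 1 g z) z := by
        simp only [dbF, hη0, hη1]
        rw [db_neg, sub_neg_eq_add]
      have e4 : χ z * g z = g z := by
        by_cases hz : z ∈ closedBall (0 : C2) (δ / 2)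
        · rw [hχ1 z hz, one_mul]
        · rw [hg.eq_zero fun h => hz (ball_subset_closedBall h), mul_zero]
      rw [e3, e2, e2]
      simp only [smul_eq_mul]
      calc g z = χ z * g z := e4.symm
        _ = χ z * (db 0 (T 0 g) z + db 1 (T 1 g) z) := by rw [e1]
        _ = _ := by ring
    have h2 : V g = V (dbF (fun z => χ z • T2 g z)) -
        (V (fun z => T 0 g z • db 0 χ z) + V (fun z => T 1 g z • db 1 χ z)) := by
      conv_lhs => rw [h1]
      rw [hV.sub hη.dbF ((ht 0).add (ht 1)), hV.add _ _ (ht 0) (ht 1)]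
    have h3 : ∀ j, V (fun z => T j g z • db j χ z) = ∫ z, g z * k j z := by
      intro j
      rw [← hΨ _ (ht j)]
      exact Phi_T (hψs j) (hψ0 j) Ψ j hg
    have i1 : ∀ j, Integrable fun z => bt j z * T j g z := fun j =>
      ((hbt j).mul_right (hTg j)).integrable
    have h4 : V (dbF (fun z => χ z • T2 g z)) =
        -(∫ z, T 0 (bt 0) z * g z) - ∫ z, T 1 (bt 1) z * g z := by
      rw [hVβ _ hη]
      have e1 : ∀ z, β z 0 * (χ z • T2 g z) 1 - β z 1 * (χ z • T2 g z) 0 =
          bt 0 z * T 0 g z + bt 1 z * T 1 g z := by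
        intro z
        rw [hη0, hη1]
        show _ = χ z * β z 0 * _ + χ z * β z 1 * _
        ring
      rw [integral_congr_ae (Eventually.of_forall e1), integral_add (i1 0) (i1 1),
        integral_mul_T (hbt 0).continuous (hbt 0).cpt hg.continuous hg.cpt,
        integral_mul_T (hbt 1).continuous (hbt 1).cpt hg.continuous hg.cpt]
      ring
    have i2 : ∀ j, Integrable fun z => g z * k j z := fun j =>
      integrable_phi (hψs j) (hψ0 j) Ψ j hg
    have i3 : ∀ j, Integrable fun z => T j (bt j) z * g z := fun j =>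
      (Test.mul_left (hTb j) hg).integrable
    have h5 : ∫ z, v z * g z = -(∫ z, T 0 (bt 0) z * g z) - (∫ z, T 1 (bt 1) z * g z) -
        (∫ z, g z * k 0 z) - ∫ z, g z * k 1 z := by
      have e1 : ∀ z, v z * g z = -(T 0 (bt 0) z * g z) - T 1 (bt 1) z * g z - g z * k 0 z -
          g z * k 1 z := by
        intro z
        show (-(T 0 (bt 0) z + T 1 (bt 1) z) - (k 0 z + k 1 z)) * g z = _
        ring
      have n0 : Integrable fun z => -(T 0 (bt 0) z * g z) := (i3 0).neg
      have n1 : Integrable fun z => -(T 0 (bt 0) z * g z) - T 1 (bt 1) z * g z := n0.sub (i3 1)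
      have n2 : Integrable fun z => -(T 0 (bt 0) z * g z) - T 1 (bt 1) z * g z - g z * k 0 z :=
        n1.sub (i2 0)
      rw [integral_congr_ae (Eventually.of_forall e1), integral_sub n2 (i2 1),
        integral_sub n1 (i2 0), integral_sub n0 (i3 1), integral_neg]
    rw [h2, h3, h3, h4, h5]
    ring
  · intro B₀ hB₀ z hz
    have hB00 : 0 ≤ B₀ := (norm_nonneg _).trans (hB₀ 0 (by simp [hδ]))
    have hz' : z ∈ ball (0 : C2) (δ / 2) := closedBall_subset_ball (by linarith) hz
    have hzR : z ∈ closedBall (0 : C2) δ := closedBall_subset_closedBall (by linarith) hz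
    have hBj : ∀ j, ∀ z ∈ ball (0 : C2) δ, ‖β z j‖ ≤ B₀ := fun j w hw =>
      (norm_le_pi_norm (β w) j).trans (hB₀ w hw)
    have a0 := (hCT 0 (fun z => β z 0) (hβj 0)).1 B₀ (hBj 0) z hzR
    have a1 := (hCT 1 (fun z => β z 1) (hβj 1)).1 B₀ (hBj 1) z hzR
    have b0 := (Phi_bound (hψs 0) (hψ0 0) Ψ hΨM hM 0 hz' (hCG 0 0 z hz)).1
    have b1 := (Phi_bound (hψs 1) (hψ0 1) Ψ hΨM hM 1 hz' (hCG 1 1 z hz)).1
    have c0 := hCG0 0
    have c1 := hCG0 1
    have e1 : ‖v z‖ ≤ (CT * B₀ + CT * B₀) + (M * CG 0 + M * CG 1) := by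
      refine (norm_sub_le _ _).trans ?_
      rw [norm_neg]
      refine add_le_add ((norm_add_le _ _).trans (add_le_add a0 a1))
        ((norm_add_le _ _).trans (add_le_add b0 b1))
    refine e1.trans ?_
    have : 0 ≤ 2 * CT * M + (CG 0 + CG 1) * B₀ := by positivity
    nlinarith
  · intro B₀ B₁ hB₀ hB₁ z hz
    have hB00 : 0 ≤ B₀ := (norm_nonneg _).trans (hB₀ 0 (by simp [hδ]))
    have hB10 : 0 ≤ B₁ := (norm_nonneg _).trans (hB₁ 0 (by simp [hδ]))
    have hz' : z ∈ ball (0 : C2) (δ / 2) := closedBall_subset_ball (by linarith) hz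
    have hzR : z ∈ closedBall (0 : C2) δ := closedBall_subset_closedBall (by linarith) hz
    have hBj : ∀ j, ∀ z ∈ ball (0 : C2) δ, ‖β z j‖ ≤ B₀ := fun j w hw =>
      (norm_le_pi_norm (β w) j).trans (hB₀ w hw)
    have hDj : ∀ j, ∀ z ∈ ball (0 : C2) δ, ‖fderiv ℝ (fun z => β z j) z‖ ≤ B₁ := by
      intro j w hw
      have hd : DifferentiableAt ℝ β w :=
        (hβ.differentiableOn (by simp)).differentiableAt (isOpen_ball.mem_nhds hw)
      have : fderiv ℝ (fun z => β z j) w = (ContinuousLinearMap.proj j).comp (fderiv ℝ β w) :=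
        ((ContinuousLinearMap.proj (R := ℝ) (φ := fun _ : Fin 2 => ℂ) j).hasFDerivAt.comp w
          hd.hasFDerivAt).fderiv
      rw [this]
      refine ContinuousLinearMap.opNorm_le_bound _ hB10 fun u => ?_
      refine (norm_le_pi_norm (fderiv ℝ β w u) j).trans ?_
      refine (ContinuousLinearMap.le_opNorm _ _).trans ?_
      gcongr
      exact hB₁ w hw
    have a0 := (hCT 0 (fun z => β z 0) (hβj 0)).2 B₀ B₁ (hBj 0) (hDj 0) z hzR
    have a1 := (hCT 1 (fun z => β z 1) (hβj 1)).2 B₀ B₁ (hBj 1) (hDj 1) z hzR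
    have b0 := (Phi_bound (hψs 0) (hψ0 0) Ψ hΨM hM 0 hz' (hCG 0 0 z hz)).2
    have b1 := (Phi_bound (hψs 1) (hψ0 1) Ψ hΨM hM 1 hz' (hCG 1 1 z hz)).2
    have c0 := hCG0 0
    have c1 := hCG0 1
    have dT : ∀ j, DifferentiableAt ℝ (T j (bt j)) z := fun j =>
      (hTb j).differentiable (by simp) z
    have dk : ∀ j, DifferentiableAt ℝ (k j) z := fun j =>
      ((hk j).differentiableOn (by simp)).differentiableAt (isOpen_ball.mem_nhds hz')
    have e0 : fderiv ℝ v z = -(fderiv ℝ (T 0 (bt 0)) z + fderiv ℝ (T 1 (bt 1)) z) -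
        (fderiv ℝ (k 0) z + fderiv ℝ (k 1) z) := by
      have f1 : HasFDerivAt v (-(fderiv ℝ (T 0 (bt 0)) z + fderiv ℝ (T 1 (bt 1)) z) -
        (fderiv ℝ (k 0) z + fderiv ℝ (k 1) z)) z :=
        (((dT 0).hasFDerivAt.add (dT 1).hasFDerivAt).neg).sub
          ((dk 0).hasFDerivAt.add (dk 1).hasFDerivAt)
      exact f1.fderiv
    have e1 : ‖fderiv ℝ v z‖ ≤ (CT * (B₀ + B₁) + CT * (B₀ + B₁)) + (M * CG 0 + M * CG 1) := by
      rw [e0]
      refine (norm_sub_le _ _).trans ?_
      rw [norm_neg]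
      refine add_le_add ((norm_add_le _ _).trans (add_le_add a0 a1))
        ((norm_add_le _ _).trans (add_le_add b0 b1))
    refine e1.trans ?_
    have : 0 ≤ 2 * CT * M + (CG 0 + CG 1) * (B₀ + B₁) := by positivity
    nlinarith

end Vale.Agent.P267.H869
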