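import Vale.Agent.P267.H869.MaxInt
import Vale.Agent.P267.H869.S2
import Vale.Agent.P267.H181.Ext

/-!
# P267 / H869: extension by zero (helper181) in charts of the maximal atlas
-/

set_option linter.unusedVariables false
set_option linter.unusedSectionVars false

open scoped Manifold ContDiff ComplexConjugate Matrix ComplexOrder Topology
open MeasureTheory Set Filter Metric

noncomputable section

namespace Vale.Agent.P267.H869

open FL
open Vale.Agent.P267.H181 (ext0 ext1 ext2)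

variable {X : Type*} [TopologicalSpace X] [ChartedSpace C2 X] [IsManifold 𝓘(ℂ, C2) ω X]
variable {V : Type*} [NormedAddCommGroup V] [NormedSpace ℂ V]

theorem max_loc0_ext0 {κ : ℤ} {e : Ch X} (he : e ∈ mAt X) {g : C2 → V} {z : C2}
    (hz : z ∈ e.target) : loc0 κ e (ext0 κ e g) z = g z :=
  @H181.loc0_ext0 X _ (maxCS X) V _ _ (maxM X) κ e he g z hz

theorem max_loc1_ext1 {κ : ℤ} {e : Ch X} (he : e ∈ mAt X) {g : C2 → Fin 2 → V} {z : C2}
    (hz : z ∈ e.target) : loc1 κ e (ext1 κ e g) z = g z :=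
  @H181.loc1_ext1 X _ (maxCS X) V _ _ (maxM X) κ e he g z hz

theorem max_loc2_ext2 {κ : ℤ} {e : Ch X} (he : e ∈ mAt X) {g : C2 → V} {z : C2}
    (hz : z ∈ e.target) : loc2 κ e (ext2 κ e g) z = g z :=
  @H181.loc2_ext2 X _ (maxCS X) V _ _ (maxM X) κ e he g z hz

theorem max_loc0_inj {κ : ℤ} {e : Ch X} (he : e ∈ mAt X) {s s' : X → V} {x : X}
    (hx : x ∈ e.source) (h : loc0 κ e s (e x) = loc0 κ e s' (e x)) : s x = s' x :=
  @H181.loc0_inj X _ (maxCS X) V _ _ (maxM X) κ e he s s' x hx h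

theorem max_loc1_inj {κ : ℤ} {e : Ch X} (he : e ∈ mAt X) {a a' : X → Fin 2 → V} {x : X}
    (hx : x ∈ e.source) (h : loc1 κ e a (e x) = loc1 κ e a' (e x)) : a x = a' x :=
  @H181.loc1_inj X _ (maxCS X) V _ _ (maxM X) κ e he a a' x hx h

theorem max_loc2_inj {κ : ℤ} {e : Ch X} (he : e ∈ mAt X) {b b' : X → V} {x : X}
    (hx : x ∈ e.source) (h : loc2 κ e b (e x) = loc2 κ e b' (e x)) : b x = b' x :=
  @H181.loc2_inj X _ (maxCS X) V _ _ (maxM X) κ e he b b' x hx h

section at_

variable {n : WithTop ℕ∞} {κ : ℤ} {e : Ch X} {x : X}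

theorem max_at0_ext0 (he : e ∈ mAt X) (hx : x ∈ e.source) {g : C2 → V}
    (h : ContDiffAt ℝ n g (e x)) : At0 n κ (ext0 κ e g) x := by
  refine at0_of_max he hx (h.congr_of_eventuallyEq ?_)
  filter_upwards [e.open_target.mem_nhds (e.map_source hx)] with z hz
  exact max_loc0_ext0 he hz

theorem max_at1_ext1 (he : e ∈ mAt X) (hx : x ∈ e.source) {g : C2 → Fin 2 → V}
    (h : ContDiffAt ℝ n g (e x)) : At1 n κ (ext1 κ e g) x := by
  refine at1_of_max he hx (h.congr_of_eventuallyEq ?_)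
  filter_upwards [e.open_target.mem_nhds (e.map_source hx)] with z hz
  exact max_loc1_ext1 he hz

theorem max_at2_ext2 (he : e ∈ mAt X) (hx : x ∈ e.source) {g : C2 → V}
    (h : ContDiffAt ℝ n g (e x)) : At2 n κ (ext2 κ e g) x := by
  refine at2_of_max he hx (h.congr_of_eventuallyEq ?_)
  filter_upwards [e.open_target.mem_nhds (e.map_source hx)] with z hz
  exact max_loc2_ext2 he hz

/-- `∂̄` of the extension, degree 0 -/
theorem dbar0_ext0 (he : e ∈ mAt X) (hx : x ∈ e.source) {g : C2 → V}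
    (h : DifferentiableAt ℝ g (e x)) :
    dbar0 κ (ext0 κ e g) x = ext1 κ e (fun z i => dzb i g z) x := by
  refine max_loc1_inj (κ := κ) he hx ?_
  have hev : loc0 κ e (ext0 κ e g) =ᶠ[𝓝 (e x)] g := by
    filter_upwards [e.open_target.mem_nhds (e.map_source hx)] with z hz
    exact max_loc0_ext0 he hz
  rw [max_loc1_ext1 he (e.map_source hx)]
  funext i
  rw [max_loc1_dbar0 he (e.map_source hx) (h.congr_of_eventuallyEq hev), dzb_congr hev]

/-- `∂̄` of the extension, degree 1 -/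
theorem dbar1_ext1 (he : e ∈ mAt X) (hx : x ∈ e.source) {g : C2 → Fin 2 → V}
    (h : DifferentiableAt ℝ g (e x)) :
    dbar1 κ (ext1 κ e g) x =
      ext2 κ e (fun z => dzb 0 (fun y => g y 1) z - dzb 1 (fun y => g y 0) z) x := by
  refine max_loc2_inj (κ := κ) he hx ?_
  have hev : loc1 κ e (ext1 κ e g) =ᶠ[𝓝 (e x)] g := by
    filter_upwards [e.open_target.mem_nhds (e.map_source hx)] with z hz
    exact max_loc1_ext1 he hz
  rw [max_loc2_ext2 he (e.map_source hx),
    max_loc2_dbar1 he (e.map_source hx) (h.congr_of_eventuallyEq hev)]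
  have h0 : ∀ i, (fun y => loc1 κ e (ext1 κ e g) y i) =ᶠ[𝓝 (e x)] fun y => g y i := fun i => by
    filter_upwards [hev] with z hz
    rw [hz]
  rw [dzb_congr (h0 1), dzb_congr (h0 0)]

end at_

section reg

variable [T2Space X] {n : WithTop ℕ∞} {κ : ℤ} {e : Ch X} {K : Set C2}

theorem max_reg1_ext1 (he : e ∈ mAt X) (hK : IsCompact K) (hKe : K ⊆ e.target)
    {a : C2 → Fin 2 → V} (h0 : ∀ z ∉ K, a z = 0) (hg : ∀ z ∈ e.target, ContDiffAt ℝ n a z) :
    Reg1 n κ (ext1 κ e a) := by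
  refine reg1_iff_at.2 fun x => ?_
  by_cases hx : x ∈ e.source
  · exact max_at1_ext1 he hx (hg _ (e.map_source hx))
  · refine (at1_zero (V := V)).congr ?_
    have h1 : x ∉ e.symm '' K := fun h => hx (H181.symm_image_subset hKe h)
    filter_upwards [(H181.isClosed_symm_image hK hKe).isOpen_compl.mem_nhds h1] with y hy
    exact H181.ext1_eq_zero h0 hy

theorem max_reg0_ext0 (he : e ∈ mAt X) (hK : IsCompact K) (hKe : K ⊆ e.target)
    {a : C2 → V} (h0 : ∀ z ∉ K, a z = 0) (hg : ∀ z ∈ e.target, ContDiffAt ℝ n a z) :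
    Reg0 n κ (ext0 κ e a) := by
  refine reg0_iff_at.2 fun x => ?_
  by_cases hx : x ∈ e.source
  · exact max_at0_ext0 he hx (hg _ (e.map_source hx))
  · refine (at0_zero (V := V)).congr ?_
    have h1 : x ∉ e.symm '' K := fun h => hx (H181.symm_image_subset hKe h)
    filter_upwards [(H181.isClosed_symm_image hK hKe).isOpen_compl.mem_nhds h1] with y hy
    exact H181.ext0_eq_zero h0 hy

theorem max_reg2_ext2 (he : e ∈ mAt X) (hK : IsCompact K) (hKe : K ⊆ e.target)
    {a : C2 → V} (h0 : ∀ z ∉ K, a z = 0) (hg : ∀ z ∈ e.target, ContDiffAt ℝ n a z) :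
    Reg2 n κ (ext2 κ e a) := by
  refine reg2_iff_at.2 fun x => ?_
  by_cases hx : x ∈ e.source
  · exact max_at2_ext2 he hx (hg _ (e.map_source hx))
  · refine (at2_zero (V := V)).congr ?_
    have h1 : x ∉ e.symm '' K := fun h => hx (H181.symm_image_subset hKe h)
    filter_upwards [(H181.isClosed_symm_image hK hKe).isOpen_compl.mem_nhds h1] with y hy
    exact H181.ext2_eq_zero h0 hy

end reg

/-- the two notations for `∂/∂z̄_j` -/
theorem dzb_eq_db (j : Fin 2) (f : C2 → V) (z : C2) : dzb j f z = H667.db j f z := by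
  rw [FL.dzb, H667.db_eq]
  have : (1 / 2 : ℝ) • (fderiv ℝ f z (Pi.single j 1) +
      Complex.I • fderiv ℝ f z (Pi.single j Complex.I)) =
      ((1 / 2 : ℝ) : ℂ) • (fderiv ℝ f z (Pi.single j 1) +
      Complex.I • fderiv ℝ f z (Pi.single j Complex.I)) := by
    rw [Complex.coe_smul]
  rw [this]
  norm_num

end Vale.Agent.P267.H869
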