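import Vale.Agent.P267.H869.Max
import Vale.Agent.P267.H928.Int.FLLin
import Vale.Agent.P267.H399.Calc2

/-!
# P267 / H869: chart formula for `intX` in charts of the maximal atlas
-/

set_option linter.unusedVariables false
set_option linter.unusedSectionVars false

open scoped Manifold ContDiff ComplexConjugate Matrix ComplexOrder
open MeasureTheory Set Filter Topology

noncomputable section

namespace Vale.Agent.P267.H869

open FL

variable {X : Type*} [TopologicalSpace X] [ChartedSpace C2 X] [IsManifold 𝓘(ℂ, C2) ω X]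

/-! ### `At` predicates in holomorphic charts -/

section at_

variable {V : Type*} [NormedAddCommGroup V] [NormedSpace ℂ V]

theorem At0.max {n : WithTop ℕ∞} {κ : ℤ} {s : X → V} {x : X} (h : At0 n κ s x) {e : Ch X}
    (he : e ∈ mAt X) (hx : x ∈ e.source) : ContDiffAt ℝ n (loc0 κ e s) (e x) :=
  @loc0_contDiffAt_change X _ (maxCS X) V _ _ (maxM X) n κ e (chartAt C2 x) he
    (atlas_subset_mAt (chart_mem_atlas C2 x)) x hx (mem_chart_source C2 x) s h

theorem At1.max {n : WithTop ℕ∞} {κ : ℤ} {s : X → Fin 2 → V} {x : X} (h : At1 n κ s x) {e : Ch X}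
    (he : e ∈ mAt X) (hx : x ∈ e.source) : ContDiffAt ℝ n (loc1 κ e s) (e x) :=
  @loc1_contDiffAt_change X _ (maxCS X) V _ _ (maxM X) n κ e (chartAt C2 x) he
    (atlas_subset_mAt (chart_mem_atlas C2 x)) x hx (mem_chart_source C2 x) s h

theorem At2.max {n : WithTop ℕ∞} {κ : ℤ} {s : X → V} {x : X} (h : At2 n κ s x) {e : Ch X}
    (he : e ∈ mAt X) (hx : x ∈ e.source) : ContDiffAt ℝ n (loc2 κ e s) (e x) :=
  @loc2_contDiffAt_change X _ (maxCS X) V _ _ (maxM X) n κ e (chartAt C2 x) he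
    (atlas_subset_mAt (chart_mem_atlas C2 x)) x hx (mem_chart_source C2 x) s h

theorem at0_of_max {n : WithTop ℕ∞} {κ : ℤ} {s : X → V} {x : X} {e : Ch X} (he : e ∈ mAt X)
    (hx : x ∈ e.source) (h : ContDiffAt ℝ n (loc0 κ e s) (e x)) : At0 n κ s x :=
  @loc0_contDiffAt_change X _ (maxCS X) V _ _ (maxM X) n κ (chartAt C2 x) e
    (atlas_subset_mAt (chart_mem_atlas C2 x)) he x (mem_chart_source C2 x) hx s h

theorem at1_of_max {n : WithTop ℕ∞} {κ : ℤ} {s : X → Fin 2 → V} {x : X} {e : Ch X}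
    (he : e ∈ mAt X) (hx : x ∈ e.source) (h : ContDiffAt ℝ n (loc1 κ e s) (e x)) :
    At1 n κ s x :=
  @loc1_contDiffAt_change X _ (maxCS X) V _ _ (maxM X) n κ (chartAt C2 x) e
    (atlas_subset_mAt (chart_mem_atlas C2 x)) he x (mem_chart_source C2 x) hx s h

theorem at2_of_max {n : WithTop ℕ∞} {κ : ℤ} {s : X → V} {x : X} {e : Ch X} (he : e ∈ mAt X)
    (hx : x ∈ e.source) (h : ContDiffAt ℝ n (loc2 κ e s) (e x)) : At2 n κ s x :=
  @loc2_contDiffAt_change X _ (maxCS X) V _ _ (maxM X) n κ (chartAt C2 x) e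
    (atlas_subset_mAt (chart_mem_atlas C2 x)) he x (mem_chart_source C2 x) hx s h

end at_

theorem hasInt_of_max {b : X → ℂ} {I : ℂ} (h : @HasInt X _ (maxCS X) b I) : HasInt b I := by
  intro N e r he hr hrc hrs hsum
  exact h N e r (fun i => atlas_subset_mAt (he i)) hr hrc hrs hsum

variable [T2Space X] [SigmaCompactSpace X]

/-- chart formula for `intX`, holomorphic charts -/
theorem intX_chart_max {n : WithTop ℕ∞} {b : X → ℂ} (h : Reg2 n 1 b) (hc : HasCompactSupport b)
    {e : Ch X} (he : e ∈ mAt X) (hs : ∀ x ∉ e.source, b x = 0) :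
    intX b = 4 * ∫ z in e.target, loc2 1 e b z := by
  have h0 : Reg2 0 1 b := h.zero_order
  have h1 : @Reg2 X _ (maxCS X) ℂ _ _ 0 1 b := reg2_max h0
  have h2 := @integrableX_of_reg X _ (maxCS X) ℂ _ _ (maxM X) _ _ b h1 hc
  have h3 := @intX_chart X _ (maxCS X) (maxM X) _ _ b h2 hc e he hs
  have h4 : @HasInt X _ (maxCS X) b (@intX X _ (maxCS X) b) :=
    @hasInt_intX X _ (maxCS X) (maxM X) _ _ b h1 hc
  have h5 : intX b = @intX X _ (maxCS X) b :=
    HasInt.unique hc (hasInt_intX h0 hc) (hasInt_of_max h4)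
  rw [h5]
  exact h3

end Vale.Agent.P267.H869
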