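import Vale.Agent.P267.H869.S2

/-!
# P267 / XA-SMOOTH (helper869): the local Weyl lemma on an arbitrary ball
-/

set_option linter.unusedVariables false
set_option linter.unusedSectionVars false

open MeasureTheory Set Filter Metric Topology
open scoped ContDiff

noncomputable section

namespace Vale.Agent.P267.H869

open Vale.Agent.P267.H667 Vale.Agent.P267.H439

section transl

variable {W : Type*} [NormedAddCommGroup W] [NormedSpace ℂ W]

theorem Test.translate {c : C2} {R : ℝ} {f : C2 → W} (z₀ : C2) (hf : Test (ball c R) f) :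
    Test (ball (c + z₀) R) (fun z => f (z - z₀)) := by
  have h1 : (fun z => f (z - z₀)) = f ∘ (Homeomorph.subRight z₀) := rfl
  have h2 : tsupport (fun z => f (z - z₀)) = (Homeomorph.subRight z₀) ⁻¹' tsupport f := by
    rw [h1]; exact tsupport_comp_eq_preimage f _
  refine ⟨hf.smooth.comp (contDiff_id.sub contDiff_const), ?_, ?_⟩
  · rw [h1]
    exact hf.cpt.comp_homeomorph _
  · rw [h2]
    intro z hz
    have := hf.supp hz
    simp only [Homeomorph.subRight_apply, mem_ball, dist_eq_norm] at this ⊢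
    rwa [show z - (c + z₀) = z - z₀ - c by abel]

theorem db_translate (j : Fin 2) (f : C2 → W) (z₀ z : C2) :
    db j (fun z => f (z - z₀)) z = db j f (z - z₀) := by
  unfold db
  have : fderiv ℝ (fun z => f (z - z₀)) z = fderiv ℝ f (z - z₀) := by
    have := fderiv_comp_add_right (𝕜 := ℝ) (f := f) (x := z) (-z₀)
    simpa only [sub_eq_add_neg] using this
  rw [this]

theorem dbF_translate (η : C2 → Fin 2 → ℂ) (z₀ z : C2) :
    dbF (fun z => η (z - z₀)) z = dbF η (z - z₀) := by
  unfold dbF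
  rw [db_translate 0 (fun w => η w 1) z₀ z, db_translate 1 (fun w => η w 0) z₀ z]

theorem LF.translate {z₀ : C2} {δ M : ℝ} {V : (C2 → W) → ℂ} (hV : LF W (ball z₀ δ) M V) :
    LF W (ball 0 δ) M (fun g => V (fun z => g (z - z₀))) := by
  have key : ∀ {g : C2 → W}, Test (ball 0 δ) g → Test (ball z₀ δ) (fun z => g (z - z₀)) := by
    intro g hg
    have := hg.translate z₀
    rwa [zero_add] at this
  exact ⟨fun f g hf hg => hV.add _ _ (key hf) (key hg), fun c f hf => hV.smul c _ (key hf),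
    fun f hf B hB => hV.bound _ (key hf) B fun z => hB _⟩

end transl

/-- **local smoothing lemma, degree zero** -/
theorem exists_weyl {δ : ℝ} (hδ : 0 < δ) : ∃ C : ℝ, 0 ≤ C ∧
    ∀ (z₀ : C2) (V : (C2 → ℂ) → ℂ) (M : ℝ) (β : C2 → Fin 2 → ℂ),
    LF ℂ (ball z₀ δ) M V → 0 ≤ M → ContDiffOn ℝ ∞ β (ball z₀ δ) →
    (∀ η, Test (ball z₀ δ) η → V (dbF η) = ∫ z, (β z 0 * η z 1 - β z 1 * η z 0)) →
    ∃ v : C2 → ℂ, ContDiffOn ℝ ∞ v (ball z₀ (δ / 2)) ∧
      (∀ g, Test (ball z₀ (δ / 2)) g → V g = ∫ z, v z * g z) ∧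
      (∀ z ∈ ball z₀ (δ / 2), ∀ i, db i v z = -β z i) ∧
      (∀ B₀, (∀ z ∈ ball z₀ δ, ‖β z‖ ≤ B₀) → ∀ z ∈ closedBall z₀ (δ / 4),
        ‖v z‖ ≤ C * (M + B₀)) ∧
      (∀ B₀ B₁, (∀ z ∈ ball z₀ δ, ‖β z‖ ≤ B₀) → (∀ z ∈ ball z₀ δ, ‖fderiv ℝ β z‖ ≤ B₁) →
        ∀ z ∈ closedBall z₀ (δ / 4), ‖fderiv ℝ v z‖ ≤ C * (M + B₀ + B₁)) := by
  obtain ⟨C, hC0, hC⟩ := exists_weyl_zero hδ
  refine ⟨C, hC0, fun z₀ V M β hV hM hβ hVβ => ?_⟩
  have hmem : ∀ {z : C2} {r : ℝ}, z + z₀ ∈ ball z₀ r ↔ z ∈ ball (0 : C2) r := by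
    intro z r
    rw [mem_ball, mem_ball, dist_eq_norm, dist_eq_norm, add_sub_cancel_right, sub_zero]
  have hmem' : ∀ {z : C2} {r : ℝ}, z ∈ ball z₀ r ↔ z - z₀ ∈ ball (0 : C2) r := by
    intro z r
    rw [← hmem, sub_add_cancel]
  have hmemc : ∀ {z : C2} {r : ℝ}, z ∈ closedBall z₀ r ↔ z - z₀ ∈ closedBall (0 : C2) r := by
    intro z r
    rw [mem_closedBall, mem_closedBall, dist_eq_norm, dist_eq_norm, sub_zero]
  let β' : C2 → Fin 2 → ℂ := fun z => β (z + z₀)
  have hβ' : ContDiffOn ℝ ∞ β' (ball 0 δ) :=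
    hβ.comp ((contDiff_id.add contDiff_const).contDiffOn) fun z hz => hmem.2 hz
  have hfd : ∀ z, fderiv ℝ β' z = fderiv ℝ β (z + z₀) := fun z =>
    fderiv_comp_add_right (𝕜 := ℝ) (f := β) (x := z) z₀
  obtain ⟨v, hv1, hv2, hv3, hv4⟩ := hC _ M β' hV.translate hM hβ' (by
    intro η hη
    have h1 : Test (ball z₀ δ) (fun z => η (z - z₀)) := by
      have := hη.translate z₀; rwa [zero_add] at this
    have h2 := hVβ _ h1
    have h3 : dbF (fun z => η (z - z₀)) = fun z => dbF η (z - z₀) :=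
      funext fun z => dbF_translate η z₀ z
    rw [h3] at h2
    rw [h2, ← integral_add_right_eq_self (fun z => β z 0 * η (z - z₀) 1 - β z 1 * η (z - z₀) 0) z₀]
    simp only [add_sub_cancel_right]
    rfl)
  have hvs : ContDiffOn ℝ ∞ (fun z => v (z - z₀)) (ball z₀ (δ / 2)) :=
    hv1.comp ((contDiff_id.sub contDiff_const).contDiffOn) fun z hz => hmem'.1 hz
  have hrep : ∀ g, Test (ball z₀ (δ / 2)) g → V g = ∫ z, v (z - z₀) * g z := by
    intro g hg
    have h1 : Test (ball 0 (δ / 2)) (fun z => g (z + z₀)) := by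
      have := hg.translate (-z₀)
      rw [add_neg_cancel] at this
      simpa only [sub_neg_eq_add] using this
    have h2 := hv2 _ h1
    simp only [sub_add_cancel] at h2
    rw [show V g = V (fun z => g z) from rfl, h2,
      ← integral_add_right_eq_self (fun z => v (z - z₀) * g z) z₀]
    simp only [add_sub_cancel_right]
  have hsub : ball z₀ (δ / 2) ⊆ ball z₀ δ := ball_subset_ball (by linarith)
  have hβj : ∀ j, ContDiffOn ℝ ∞ (fun z => β z j) (ball z₀ (δ / 2)) := fun j =>
    contDiffOn_pi.1 (hβ.mono hsub) j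
  refine ⟨fun z => v (z - z₀), hvs, hrep, ?_, ?_, ?_⟩
  · -- the equation
    have hdv : ∀ i, ContinuousOn (db i fun z => v (z - z₀)) (ball z₀ (δ / 2)) := fun i =>
      ((dbLL (F := ℂ) i).continuous.comp_continuousOn
        (hvs.continuousOn_fderiv_of_isOpen isOpen_ball (by simp)))
    have key : ∀ i, ∀ φ, Test (ball z₀ (δ / 2)) φ →
        ∫ z, v (z - z₀) * db i φ z = ∫ z, β z i * φ z := by
      intro i φ hφ
      fin_cases i
      · -- `η = (0, φ)`
        let η : C2 → Fin 2 → ℂ := fun z => ![0, φ z]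
        have h1 : Test (ball z₀ (δ / 2)) η := by
          rw [Test.pi]
          intro i
          fin_cases i
          · exact Test.zero
          · exact hφ
        have h2 : dbF η = db 0 φ := by
          funext z
          show db 0 (fun w => φ w) z - db 1 (fun _ => (0 : ℂ)) z = db 0 φ z
          have : db 1 (fun _ : C2 => (0 : ℂ)) z = 0 := by simp [db_eq]
          rw [this, sub_zero]
        have h3 := hVβ η (h1.mono hsub)
        rw [h2, hrep _ (hφ.db 0)] at h3
        rw [show (⟨0, by norm_num⟩ : Fin 2) = 0 from rfl, h3]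
        refine integral_congr_ae (Eventually.of_forall fun z => ?_)
        show β z 0 * φ z - β z 1 * 0 = β z 0 * φ z
        ring
      · let η : C2 → Fin 2 → ℂ := fun z => ![φ z, 0]
        have h1 : Test (ball z₀ (δ / 2)) η := by
          rw [Test.pi]
          intro i
          fin_cases i
          · exact hφ
          · exact Test.zero
        have h2 : dbF η = fun z => -db 1 φ z := by
          funext z
          show db 0 (fun _ => (0 : ℂ)) z - db 1 (fun w => φ w) z = -db 1 φ z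
          have : db 0 (fun _ : C2 => (0 : ℂ)) z = 0 := by simp [db_eq]
          rw [this, zero_sub]
        have h3 := hVβ η (h1.mono hsub)
        rw [h2, hrep _ (hφ.db 1).neg] at h3
        have h4 : ∫ z, v (z - z₀) * db 1 φ z = -∫ z, v (z - z₀) * -db 1 φ z := by
          rw [← integral_neg]
          refine integral_congr_ae (Eventually.of_forall fun z => ?_)
          show _ = -(v (z - z₀) * -db 1 φ z)
          ring
        show ∫ z, v (z - z₀) * db 1 φ z = ∫ z, β z 1 * φ z
        rw [h4, h3, ← integral_neg]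
        refine integral_congr_ae (Eventually.of_forall fun z => ?_)
        show -(β z 0 * 0 - β z 1 * φ z) = β z 1 * φ z
        ring
    intro z hz i
    refine eqOn_of_test isOpen_ball (hdv i) ((hβj i).continuousOn.neg) ?_ z hz
    intro φ hφ
    have h1 := integral_mul_db isOpen_ball hvs hφ i
    have h2 := key i φ hφ
    have h3 : ∫ z, -β z i * φ z = -∫ z, β z i * φ z := by
      rw [← integral_neg]
      refine integral_congr_ae (Eventually.of_forall fun z => ?_)
      show -β z i * φ z = -(β z i * φ z)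
      ring
    show ∫ z, db i (fun z => v (z - z₀)) z * φ z = ∫ z, -β z i * φ z
    rw [h3, ← h2, h1, neg_neg]
  · intro B₀ hB₀ z hz
    exact hv3 B₀ (fun w hw => hB₀ _ (hmem.2 hw)) _ (hmemc.1 hz)
  · intro B₀ B₁ hB₀ hB₁ z hz
    have h1 := hv4 B₀ B₁ (fun w hw => hB₀ _ (hmem.2 hw))
      (fun w hw => by rw [hfd]; exact hB₁ _ (hmem.2 hw)) _ (hmemc.1 hz)
    have h2 : fderiv ℝ (fun z => v (z - z₀)) z = fderiv ℝ v (z - z₀) := by
      have := fderiv_comp_add_right (𝕜 := ℝ) (f := v) (x := z) (-z₀)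
      simpa only [sub_eq_add_neg] using this
    rw [h2]
    exact h1

end Vale.Agent.P267.H869
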