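import Vale.Agent.P267.H869.MaxInt
import Vale.Agent.P267.H869.S3
import Vale.Agent.P267.H306.HB
import Vale.Agent.P267.H181.Ext

/-!
# P267 / XA-SMOOTH (helper869): patches (definitions)

A patch `p` of `(L, a)` is a holomorphic chart whose image contains the ball of radius `3` together
with a holomorphic frame `s` of `L` and the dual frame `t` of the dual bundle.
`A` is a functional on `K ⊗ L.dual`-valued test `(0,1)`-forms.
-/

set_option linter.unusedVariables false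
set_option linter.unusedSectionVars false

open scoped Manifold ContDiff ComplexConjugate Matrix ComplexOrder Topology
open MeasureTheory Set Filter Metric

noncomputable section

namespace Vale.Agent.P267.H869

open FL
open Vale.Agent.P267.H306 (bp pr bpL Test0 Test1 D0)
open Vale.Agent.P267.H181 (ext0 ext1 ext2)

variable {M : Type} [TopologicalSpace M] [ChartedSpace C2 M]
variable {ι : Type} [Fintype ι] [DecidableEq ι]

/-- the holomorphic structure of the dual bundle -/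
def ng (a : M → Fin 2 → ℂ) : M → Fin 2 → ℂ := fun x i => -a x i

/-- `v ∧ η` (pairing of `L`-valued and `L.dual`-valued `(0,1)`-forms) -/
def wdg (v η : M → Fin 2 → EuclideanSpace ℂ ι) (x : M) : ℂ :=
  bp (v x 0) (η x 1) - bp (v x 1) (η x 0)

/-- A holomorphic chart whose image contains the ball of radius `3`, with a holomorphic frame of
`(L, a)` and the dual frame. -/
structure Patch (L : LB M ι) (a : M → Fin 2 → ℂ) where
  e : Ch M
  e_mem : e ∈ mAt M
  ball_sub : ball (0 : C2) 3 ⊆ e.target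
  s : M → EuclideanSpace ℂ ι
  t : M → EuclideanSpace ℂ ι
  s_reg : ∀ x ∈ e.source, e x ∈ ball (0 : C2) 3 → At0 ∞ 0 s x
  t_reg : ∀ x ∈ e.source, e x ∈ ball (0 : C2) 3 → At0 ∞ 0 t x
  s_sec : ∀ x ∈ e.source, e x ∈ ball (0 : C2) 3 → LB.act (L.P x) (s x) = s x
  t_sec : ∀ x ∈ e.source, e x ∈ ball (0 : C2) 3 → LB.act (L.dual.P x) (t x) = t x
  s_hol : ∀ x ∈ e.source, e x ∈ ball (0 : C2) 3 → L.db0 a 0 s x = 0
  t_hol : ∀ x ∈ e.source, e x ∈ ball (0 : C2) 3 → L.dual.db0 (ng a) 0 t x = 0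
  st : ∀ x ∈ e.source, e x ∈ ball (0 : C2) 3 → bp (s x) (t x) = 1

/-- smooth `(0,1)`-forms with values in `K ⊗ L.dual`, compact support in `U` -/
structure T1F (L : LB M ι) (U : Set M) (η : M → Fin 2 → EuclideanSpace ℂ ι) : Prop where
  reg : Reg1 ∞ 1 η
  sec : L.dual.Sec1 η
  cpt : HasCompactSupport η
  supp : tsupport η ⊆ U

/-- smooth `(0,2)`-forms with values in `K ⊗ L.dual`, compact support in `U` -/
structure T2F (L : LB M ι) (U : Set M) (w : M → EuclideanSpace ℂ ι) : Prop where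
  reg : Reg2 ∞ 1 w
  sec : L.dual.Sec w
  cpt : HasCompactSupport w
  supp : tsupport w ⊆ U

theorem T1F.mem {L : LB M ι} {U : Set M} {η : M → Fin 2 → EuclideanSpace ℂ ι} (h : T1F L U η) :
    η ∈ Test1 L.dual 1 := ⟨h.reg, h.sec, h.cpt⟩

theorem T1F.mono {L : LB M ι} {U U' : Set M} {η : M → Fin 2 → EuclideanSpace ℂ ι}
    (h : T1F L U η) (hU : U ⊆ U') : T1F L U' η := ⟨h.reg, h.sec, h.cpt, h.supp.trans hU⟩

theorem T2F.mono {L : LB M ι} {U U' : Set M} {w : M → EuclideanSpace ℂ ι}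
    (h : T2F L U w) (hU : U ⊆ U') : T2F L U' w := ⟨h.reg, h.sec, h.cpt, h.supp.trans hU⟩

open Classical in
/-- the functional as a function on all forms -/
def Af {L : LB M ι} (A : Test1 L.dual 1 →ₗ[ℂ] ℂ) (η : M → Fin 2 → EuclideanSpace ℂ ι) : ℂ :=
  if h : η ∈ Test1 L.dual 1 then A ⟨η, h⟩ else 0

theorem Af_eq {L : LB M ι} (A : Test1 L.dual 1 →ₗ[ℂ] ℂ) {η : M → Fin 2 → EuclideanSpace ℂ ι}
    (h : η ∈ Test1 L.dual 1) : Af A η = A ⟨η, h⟩ := dif_pos h

namespace Patch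

variable {L : LB M ι} {a : M → Fin 2 → ℂ} (p : Patch L a)

/-- the part of the patch with coordinates in the ball of radius `r` -/
def dom (r : ℝ) : Set M := p.e.source ∩ p.e ⁻¹' ball (0 : C2) r

/-- the `K ⊗ L.dual`-valued function with component `b` -/
def J0 (b : C2 → ℂ) (x : M) : EuclideanSpace ℂ ι := ext0 1 p.e b x • p.t x

/-- the `K ⊗ L.dual`-valued `(0,1)`-form with components `g` -/
def J1 (g : C2 → Fin 2 → ℂ) (x : M) (i : Fin 2) : EuclideanSpace ℂ ι := ext1 1 p.e g x i • p.t x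

/-- the `K ⊗ L.dual`-valued `(0,2)`-form with component `f` -/
def J2 (f : C2 → ℂ) (x : M) : EuclideanSpace ℂ ι := ext2 1 p.e f x • p.t x

open Classical in
/-- component of a `K ⊗ L.dual`-valued `(0,1)`-form on the ball of radius `3` -/
def c1 (η : M → Fin 2 → EuclideanSpace ℂ ι) (z : C2) : Fin 2 → ℂ :=
  if z ∈ ball (0 : C2) 3 then loc1 1 p.e (fun x i => bp (p.s x) (η x i)) z else 0

open Classical in
/-- component of a `K ⊗ L.dual`-valued `(0,2)`-form on the ball of radius `3` -/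
def c2 (w : M → EuclideanSpace ℂ ι) (z : C2) : ℂ :=
  if z ∈ ball (0 : C2) 3 then loc2 1 p.e (fun x => bp (p.s x) (w x)) z else 0

/-- component of an `L`-valued function -/
def d0 (v : M → EuclideanSpace ℂ ι) (z : C2) : ℂ := loc0 0 p.e (fun x => bp (v x) (p.t x)) z

/-- components of an `L`-valued `(0,1)`-form -/
def d1 (v : M → Fin 2 → EuclideanSpace ℂ ι) (z : C2) : Fin 2 → ℂ :=
  loc1 0 p.e (fun x i => bp (v x i) (p.t x)) z

/-- component of an `L`-valued `(0,2)`-form -/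
def d2 (r : M → EuclideanSpace ℂ ι) (z : C2) : ℂ := loc2 0 p.e (fun x => bp (r x) (p.t x)) z

/-- the functional in the patch -/
def Lam (A : Test1 L.dual 1 →ₗ[ℂ] ℂ) (g : C2 → Fin 2 → ℂ) : ℂ := Af A (p.J1 g)

/-- the functional of degree two -/
def U (A : Test1 L.dual 1 →ₗ[ℂ] ℂ) (w : M → EuclideanSpace ℂ ι) : ℂ := Uf (p.Lam A) (p.c2 w)

/-- hypothesis: local bound of the functional in the patch -/
def Bd (A : Test1 L.dual 1 →ₗ[ℂ] ℂ) (W : ℝ) : Prop :=
  ∀ g, Test (ball (0 : C2) 3) g → ∀ B, (∀ z, ‖g z‖ ≤ B) → ‖p.Lam A g‖ ≤ W * B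

/-- bounds for the transition from `p` to `q` on a set -/
structure TrB (q : Patch L a) (N : Set M) (B : ℝ) : Prop where
  pq : ∀ x ∈ N, ∀ i j, ‖jacM p.e q.e x i j‖ ≤ B
  qp : ∀ x ∈ N, ∀ i j, ‖jacM q.e p.e x i j‖ ≤ B
  fr : ∀ x ∈ N, ‖bp (p.s x) (q.t x)‖ ≤ B

end Patch

end Vale.Agent.P267.H869
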