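import Vale.Agent.P267.H869.Fub

/-!
# P267 / XA-SMOOTH (helper869): the local smoothing lemma in degree one

`Λ` functional of order zero on test `(2,1)`-forms on the ball of radius `3`, `Λ (∂̄ b) = ∫ r b`
with `r` smooth. Then `Λ η = U (∂̄ η) + ∫ α ∧ η` on the ball of radius `5/2` with
`U = Λ ∘ (χ T²)` and a smooth `(0,1)`-form `α` with `∂̄ α = r` (explicit bounds).
-/

set_option linter.unusedVariables false
set_option linter.unusedSectionVars false

open MeasureTheory Set Filter Metric Topology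
open scoped ContDiff

noncomputable section

namespace Vale.Agent.P267.H869

open Vale.Agent.P267.H667 Vale.Agent.P267.H439

/-! ### cut-off functions -/

theorem exists_cutoff {R₁ R : ℝ} (h0 : 0 < R₁) (h : R₁ < R) : ∃ χ : C2 → ℂ, Test (ball 0 R) χ ∧
    (∀ z ∈ closedBall (0 : C2) R₁, χ z = 1) ∧ (∀ z, ‖χ z‖ ≤ 1) ∧
    ∀ j, ∀ z ∈ ball (0 : C2) R₁, db j χ z = 0 := by
  have h1 : R₁ < (R₁ + R) / 2 := by linarith
  let f : ContDiffBump (0 : C2) := ⟨R₁, (R₁ + R) / 2, h0, h1⟩
  have hs : ∀ z ∈ closedBall (0 : C2) R₁, ((f z : ℝ) : ℂ) = 1 := by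
    intro z hz
    rw [f.one_of_mem_closedBall hz]
    simp
  refine ⟨fun z => ((f z : ℝ) : ℂ), ⟨Complex.ofRealCLM.contDiff.comp f.contDiff, ?_, ?_⟩, hs, ?_, ?_⟩
  · exact f.hasCompactSupport.comp_left (g := fun t : ℝ => (t : ℂ)) (by simp)
  · have h2 : tsupport (fun z => ((f z : ℝ) : ℂ)) ⊆ tsupport f :=
      closure_mono fun z hz h => hz (by simp [h])
    refine h2.trans ?_
    rw [f.tsupport_eq]
    exact closedBall_subset_ball (show (R₁ + R) / 2 < R by linarith)
  · intro z
    rw [Complex.norm_real, Real.norm_eq_abs, abs_of_nonneg f.nonneg]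
    exact f.le_one
  · intro j z hz
    have h3 : (fun z => ((f z : ℝ) : ℂ)) =ᶠ[𝓝 z] fun _ => 1 := by
      filter_upwards [isOpen_ball.mem_nhds hz] with w hw
      exact hs w (ball_subset_closedBall hw)
    rw [db_congr_nhds h3]
    simp [db_eq]

/-- the fixed cut-off function: `1` on the ball of radius `5/2`, supported in the ball of radius `3` -/
def chi : C2 → ℂ := Classical.choose (exists_cutoff (R₁ := 5 / 2) (R := 3) (by norm_num) (by norm_num))

theorem chi_spec : Test (ball 0 3) chi ∧ (∀ z ∈ closedBall (0 : C2) (5 / 2), chi z = 1) ∧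
    (∀ z, ‖chi z‖ ≤ 1) ∧ ∀ j, ∀ z ∈ ball (0 : C2) (5 / 2), db j chi z = 0 :=
  Classical.choose_spec (exists_cutoff (R₁ := 5 / 2) (R := 3) (by norm_num) (by norm_num))

theorem Test.mul_contDiffOn {Ω : Set C2} (hΩ : IsOpen Ω) {χ r : C2 → ℂ} (hχ : Test Ω χ)
    (hr : ContDiffOn ℝ ∞ r Ω) : Test Ω (fun z => χ z * r z) := by
  have hs : tsupport (fun z => χ z * r z) ⊆ tsupport χ :=
    tsupport_smul_subset_left (f := χ) (g := r)
  refine ⟨?_, hχ.cpt.of_isClosed_subset (isClosed_tsupport _) hs, hs.trans hχ.supp⟩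
  rw [contDiff_iff_contDiffAt]
  intro z
  by_cases hz : z ∈ tsupport χ
  · exact hχ.smooth.contDiffAt.mul (hr.contDiffAt (hΩ.mem_nhds (hχ.supp hz)))
  · have h1 : (fun z => χ z * r z) =ᶠ[𝓝 z] fun _ => 0 := by
      filter_upwards [(isClosed_tsupport χ).isOpen_compl.mem_nhds hz] with w hw
      rw [image_eq_zero_of_notMem_tsupport hw, zero_mul]
    exact contDiffAt_const.congr_of_eventuallyEq h1

/-! ### the operator in degree two -/

/-- `T² g = -T_1 g dz̄_0 + T_0 g dz̄_1` -/
def T2 (g : C2 → ℂ) (z : C2) : Fin 2 → ℂ := ![-(T 1 g z), T 0 g z]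

theorem contDiff_T2 {g : C2 → ℂ} (hg : ContDiff ℝ ∞ g) (hc : HasCompactSupport g) :
    ContDiff ℝ ∞ (T2 g) := by
  rw [contDiff_pi]
  intro i
  fin_cases i
  · exact (contDiff_T (n := ⊤) hg hc).neg
  · exact contDiff_T (n := ⊤) hg hc

/-- `U g = Λ (χ T² g)` -/
def Uf (Λ : (C2 → Fin 2 → ℂ) → ℂ) (g : C2 → ℂ) : ℂ := Λ (fun z => chi z • T2 g z)

theorem test_chi_T2 {Ω : Set C2} {g : C2 → ℂ} (hg : Test Ω g) :
    Test (ball 0 3) (fun z => chi z • T2 g z) :=
  chi_spec.1.smul_right (contDiff_T2 hg.smooth hg.cpt)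

theorem T_add {F : Type*} [NormedAddCommGroup F] [NormedSpace ℂ F] {j : Fin 2} {f g : C2 → F}
    (hf : Continuous f) (hfc : HasCompactSupport f)
    (hg : Continuous g) (hgc : HasCompactSupport g) (z : C2) :
    T j (fun w => f w + g w) z = T j f z + T j g z :=
  cv_add (integrable_cv_integrand (locallyIntegrable_K j) hf hfc z)
    (integrable_cv_integrand (locallyIntegrable_K j) hg hgc z)

theorem T_smul {F : Type*} [NormedAddCommGroup F] [NormedSpace ℂ F] {j : Fin 2} {f : C2 → F}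
    (c : ℂ) (z : C2) : T j (fun w => c • f w) z = c • T j f z := cv_smul _ _ _ _

theorem T_neg {F : Type*} [NormedAddCommGroup F] [NormedSpace ℂ F] {j : Fin 2} {f : C2 → F}
    (z : C2) : T j (fun w => - f w) z = - T j f z := cv_neg _ _ _

theorem T2_add {f g : C2 → ℂ} (hf : Continuous f) (hfc : HasCompactSupport f)
    (hg : Continuous g) (hgc : HasCompactSupport g) (z : C2) :
    T2 (fun w => f w + g w) z = T2 f z + T2 g z := by
  funext i
  fin_cases i
  · simp only [T2, T_add hf hfc hg hgc]; simp; ring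
  · simp only [T2, T_add hf hfc hg hgc]; simp

theorem T2_smul {f : C2 → ℂ} (c : ℂ) (z : C2) : T2 (fun w => c • f w) z = c • T2 f z := by
  funext i
  fin_cases i
  · simp only [T2, T_smul]; simp
  · simp only [T2, T_smul]; simp

/-- `U` is a functional of order zero -/
theorem exists_Uf_bound : ∃ C : ℝ, 0 ≤ C ∧ ∀ (Λ : (C2 → Fin 2 → ℂ) → ℂ) (M : ℝ),
    LF (Fin 2 → ℂ) (ball 0 3) M Λ → 0 ≤ M → LF ℂ (ball 0 3) (C * M) (Uf Λ) := by
  obtain ⟨C, hC0, hC⟩ := exists_T_bound 3
  refine ⟨C, hC0, fun Λ M hΛ hM => ⟨?_, ?_, ?_⟩⟩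
  · intro f g hf hg
    have h1 := hΛ.add _ _ (test_chi_T2 hf) (test_chi_T2 hg)
    unfold Uf
    rw [← h1]
    congr 1
    funext z
    rw [T2_add hf.continuous hf.cpt hg.continuous hg.cpt, smul_add]
  · intro c f hf
    have h1 := hΛ.smul c _ (test_chi_T2 hf)
    unfold Uf
    rw [← h1]
    congr 1
    funext z
    rw [T2_smul, smul_comm]
  · intro f hf B hB
    have hB0 : 0 ≤ B := (norm_nonneg _).trans (hB 0)
    have h1 := hΛ.bound _ (test_chi_T2 hf) (C * B) ?_
    · refine h1.trans (le_of_eq ?_)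
      ring
    intro z
    by_cases hz : z ∈ closedBall (0 : C2) 3
    · have hf0 : ∀ z, 3 ≤ ‖z‖ → f z = 0 := fun w hw =>
        hf.eq_zero (by rw [mem_ball_zero_iff, not_lt]; exact hw)
      have h2 : ‖T2 f z‖ ≤ C * B := by
        rw [pi_norm_le_iff_of_nonneg (by positivity)]
        intro i
        fin_cases i
        · simp only [T2]
          simpa using hC 1 f B hf.continuous hf0 hB z hz
        · simp only [T2]
          simpa using hC 0 f B hf.continuous hf0 hB z hz
      rw [norm_smul]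
      calc ‖chi z‖ * ‖T2 f z‖ ≤ 1 * (C * B) := by
            gcongr
            exact chi_spec.2.2.1 z
        _ = C * B := one_mul _
    · have : chi z = 0 := chi_spec.1.eq_zero fun h => hz (ball_subset_closedBall h)
      rw [this, zero_smul, norm_zero]
      positivity

/-! ### the local smoothing lemma -/

/-- `∂̄` of a `(0,1)`-form on `ℂ²` -/
def dbF (η : C2 → Fin 2 → ℂ) (z : C2) : ℂ := db 0 (fun w => η w 1) z - db 1 (fun w => η w 0) z

theorem Test.dbF {Ω : Set C2} {η : C2 → Fin 2 → ℂ} (h : Test Ω η) : Test Ω (dbF η) :=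
  ((Test.pi.1 h 1).db 0).sub ((Test.pi.1 h 0).db 1)

/-- the `∂̄` of a function on `ℂ²` as a vector -/
def dbV (b : C2 → ℂ) (z : C2) (i : Fin 2) : ℂ := db i b z

theorem Test.dbV {Ω : Set C2} {b : C2 → ℂ} (h : Test Ω b) : Test Ω (dbV b) :=
  Test.pi.2 fun i => h.db i

/-- the decomposition `η = ∂̄(χ T η) - ∂̄χ T η + χ T² ∂̄η` -/
theorem decomp {η : C2 → Fin 2 → ℂ} (hη : Test (ball 0 (5 / 2)) η) (z : C2) (i : Fin 2) :
    η z i = dbV (fun w => chi w * ∑ j, T j (fun y => η y j) w) z i -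
      (∑ j, T j (fun y => η y j) z) * db i chi z + (chi z • T2 (dbF η) z) i := by
  have hj : ∀ j, Test (ball 0 (5 / 2)) fun y => η y j := fun j => Test.pi.1 hη j
  have hk := koppelman_one (a := fun j y => η y j) (fun j => (hj j).smooth.of_le (by simp))
    (fun j => (hj j).cpt) i z
  have hTd : ContDiff ℝ ∞ fun w => ∑ j, T j (fun y => η y j) w :=
    ContDiff.sum fun j _ => contDiff_T (n := ⊤) (hj j).smooth (hj j).cpt
  have h1 : db i (fun w => chi w * ∑ j, T j (fun y => η y j) w) z =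
      chi z * db i (fun w => ∑ j, T j (fun y => η y j) w) z +
        db i chi z * ∑ j, T j (fun y => η y j) z := by
    have := db_smul (j := i) (a := chi) (f := fun w => ∑ j, T j (fun y => η y j) w)
      (chi_spec.1.smooth.differentiable (by simp) z) (hTd.differentiable (by simp) z)
    simpa only [smul_eq_mul] using this
  have h2 : chi z * η z i = η z i := by
    by_cases hz : z ∈ closedBall (0 : C2) (5 / 2)
    · rw [chi_spec.2.1 z hz, one_mul]
    · have : η z = 0 := hη.eq_zero fun h => hz (ball_subset_closedBall h)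
      rw [this]; simp
  have h3 : T2 (dbF η) z i = - ∑ j, T j (fun w => db i (fun y => η y j) w -
      db j (fun y => η y i) w) z := by
    rw [Fin.sum_univ_two]
    fin_cases i
    · have e1 : (fun w => db 0 (fun y => η y 0) w - db 0 (fun y => η y 0) w) = fun _ => (0 : ℂ) := by
        funext w; ring
      have e2 : T 0 (fun _ : C2 => (0 : ℂ)) z = 0 := by simp [T_apply]
      show -(T 1 (dbF η) z) = -(T 0 (fun w => db 0 (fun y => η y 0) w - db 0 (fun y => η y 0) w) z +
        T 1 (fun w => db 0 (fun y => η y 1) w - db 1 (fun y => η y 0) w) z)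
      rw [e1, e2, zero_add]
      rfl
    · have e1 : (fun w => db 1 (fun y => η y 1) w - db 1 (fun y => η y 1) w) = fun _ => (0 : ℂ) := by
        funext w; ring
      have e2 : T 1 (fun _ : C2 => (0 : ℂ)) z = 0 := by simp [T_apply]
      show T 0 (dbF η) z = -(T 0 (fun w => db 1 (fun y => η y 0) w - db 0 (fun y => η y 1) w) z +
        T 1 (fun w => db 1 (fun y => η y 1) w - db 1 (fun y => η y 1) w) z)
      rw [e1, e2, add_zero, ← T_neg]
      congr 1
      funext w
      simp only [dbF]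
      ring
  have h4 : (chi z • T2 (dbF η) z) i = chi z * T2 (dbF η) z i := rfl
  rw [h4, h3]
  show η z i = db i (fun w => chi w * ∑ j, T j (fun y => η y j) w) z - _ + _
  rw [h1, hk, ← sub_eq_zero]
  have h5 : η z i = chi z * η z i := h2.symm
  linear_combination h5

/-- **local smoothing lemma, degree one** -/
theorem exists_alpha : ∃ C : ℝ, 0 ≤ C ∧ ∀ (Λ : (C2 → Fin 2 → ℂ) → ℂ) (M : ℝ) (r : C2 → ℂ),
    LF (Fin 2 → ℂ) (ball 0 3) M Λ → 0 ≤ M → ContDiffOn ℝ ∞ r (ball 0 3) →
    (∀ b, Test (ball 0 3) b → Λ (dbV b) = ∫ z, r z * b z) →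
    ∃ α : C2 → Fin 2 → ℂ, ContDiffOn ℝ ∞ α (ball 0 (5 / 2)) ∧
      (∀ η, Test (ball 0 (5 / 2)) η → Λ η = Uf Λ (dbF η) + ∫ z, (α z 0 * η z 1 - α z 1 * η z 0)) ∧
      (∀ z ∈ ball (0 : C2) (5 / 2), dbF α z = r z) ∧
      (∀ B₀, (∀ z ∈ ball (0 : C2) 3, ‖r z‖ ≤ B₀) → ∀ z ∈ closedBall (0 : C2) 2,
        ‖α z‖ ≤ C * (M + B₀)) ∧
      (∀ B₀ B₁, (∀ z ∈ ball (0 : C2) 3, ‖r z‖ ≤ B₀) → (∀ z ∈ ball (0 : C2) 3, ‖fderiv ℝ r z‖ ≤ B₁) →
        ∀ z ∈ closedBall (0 : C2) 2, ‖fderiv ℝ α z‖ ≤ C * (M + B₀ + B₁)) := by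
  obtain ⟨CT, hCT0, hCT⟩ := exists_T_bound 3
  have hψs : ContDiff ℝ ∞ (dbV chi) := chi_spec.1.dbV.smooth
  have hψ0 : ∀ y ∈ ball (0 : C2) (5 / 2), dbV chi y = 0 := fun y hy =>
    funext fun i => chi_spec.2.2.2 i y hy
  obtain ⟨CG, hCG0, hCG⟩ := Gk_bound (R := 3) hψs hψ0 (R₀ := 2) (by norm_num)
  -- bound for the derivative of the cut-off function
  obtain ⟨CD, hCD⟩ := (chi_spec.1.smooth.continuous_fderiv (by simp)).bounded_above_of_compact_support
    (chi_spec.1.cpt.fderiv (𝕜 := ℝ))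
  have hCD0 : 0 ≤ CD := (norm_nonneg _).trans (hCD 0)
  refine ⟨CT * (1 + CD) + CG + CT, by positivity, ?_⟩
  intro Λ M r hΛ hM hr hr2
  obtain ⟨Φ, hΦM, hΦ⟩ := hΛ.exists_extension hM (c := 0) (R := 3) ball_subset_closedBall
  let rt : C2 → ℂ := fun z => chi z * r z
  have hrt : Test (ball 0 3) rt := Test.mul_contDiffOn isOpen_ball chi_spec.1 hr
  let k : Fin 2 → C2 → ℂ := fun j z => Φ (Gk 3 (dbV chi) j z)
  have hk : ∀ j, ContDiffOn ℝ ∞ (k j) (ball 0 (5 / 2)) := fun j => contDiffOn_Phi hψs hψ0 Φ j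
  have hTr : ∀ j, ContDiff ℝ ∞ (T j rt) := fun j => contDiff_T (n := ⊤) hrt.smooth hrt.cpt
  let α : C2 → Fin 2 → ℂ := fun z => ![-(T 1 rt z) - k 1 z, T 0 rt z + k 0 z]
  have hα0 : ∀ z, α z 0 = -(T 1 rt z) - k 1 z := fun z => rfl
  have hα1 : ∀ z, α z 1 = T 0 rt z + k 0 z := fun z => rfl
  have hαs0 : ContDiffOn ℝ ∞ (fun z => α z 0) (ball 0 (5 / 2)) :=
    ((hTr 1).neg.contDiffOn).sub (hk 1)
  have hαs1 : ContDiffOn ℝ ∞ (fun z => α z 1) (ball 0 (5 / 2)) := ((hTr 0).contDiffOn).add (hk 0)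
  have hαs : ContDiffOn ℝ ∞ α (ball 0 (5 / 2)) := by
    rw [contDiffOn_pi]
    intro i
    fin_cases i
    · exact hαs0
    · exact hαs1
  refine ⟨α, hαs, ?_, ?_, ?_, ?_⟩
  · -- the representation
    intro η hη
    have hj : ∀ j, Test (ball 0 (5 / 2)) fun y => η y j := fun j => Test.pi.1 hη j
    have hTj : ∀ j, ContDiff ℝ ∞ (T j fun y => η y j) := fun j =>
      contDiff_T (n := ⊤) (hj j).smooth (hj j).cpt
    have hTd : ContDiff ℝ ∞ fun w => ∑ j, T j (fun y => η y j) w := ContDiff.sum fun j _ => hTj j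
    have hb : Test (ball 0 3) fun w => chi w * ∑ j, T j (fun y => η y j) w :=
      chi_spec.1.mul_right hTd
    have ht3 : ∀ j, Test (ball 0 3) fun z => T j (fun y => η y j) z • dbV chi z := fun j =>
      chi_spec.1.dbV.smul_left (hTj j)
    have ht4 := test_chi_T2 hη.dbF
    have h1 : η = fun z => (dbV (fun w => chi w * ∑ j, T j (fun y => η y j) w) z -
        (T 0 (fun y => η y 0) z • dbV chi z + T 1 (fun y => η y 1) z • dbV chi z)) +
        chi z • T2 (dbF η) z := by
      funext z i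
      have h2 := decomp hη z i
      have h3 : (T 0 (fun y => η y 0) z • dbV chi z + T 1 (fun y => η y 1) z • dbV chi z) i =
          (∑ j, T j (fun y => η y j) z) * db i chi z := by
        rw [Fin.sum_univ_two, add_mul]
        rfl
      show η z i = (dbV (fun w => chi w * ∑ j, T j (fun y => η y j) w) z i -
        (T 0 (fun y => η y 0) z • dbV chi z + T 1 (fun y => η y 1) z • dbV chi z) i) +
        (chi z • T2 (dbF η) z) i
      rw [h3]
      exact h2
    have h2 : Λ η = (Λ (dbV (fun w => chi w * ∑ j, T j (fun y => η y j) w)) -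
        (Λ (fun z => T 0 (fun y => η y 0) z • dbV chi z) +
          Λ (fun z => T 1 (fun y => η y 1) z • dbV chi z))) + Uf Λ (dbF η) := by
      conv_lhs => rw [h1]
      rw [hΛ.add _ _ (hb.dbV.sub ((ht3 0).add (ht3 1))) ht4,
        hΛ.sub hb.dbV ((ht3 0).add (ht3 1)), hΛ.add _ _ (ht3 0) (ht3 1)]
      rfl
    have h3 : ∀ j, Λ (fun z => T j (fun y => η y j) z • dbV chi z) = ∫ z, η z j * k j z := by
      intro j
      rw [← hΦ _ (ht3 j)]
      exact Phi_T hψs hψ0 Φ j (hj j)
    have h4 : Λ (dbV (fun w => chi w * ∑ j, T j (fun y => η y j) w)) =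
        -(∫ z, T 0 rt z * η z 0) - ∫ z, T 1 rt z * η z 1 := by
      rw [hr2 _ hb]
      have h5 : ∀ z, r z * (chi z * ∑ j, T j (fun y => η y j) z) =
          rt z * T 0 (fun y => η y 0) z + rt z * T 1 (fun y => η y 1) z := by
        intro z
        rw [Fin.sum_univ_two]
        show _ = chi z * r z * _ + chi z * r z * _
        ring
      have hi : ∀ j, Integrable fun z => rt z * T j (fun y => η y j) z := fun j =>
        (hrt.mul_right (hTj j)).integrable
      rw [integral_congr_ae (Eventually.of_forall h5), integral_add (hi 0) (hi 1),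
        integral_mul_T hrt.continuous hrt.cpt (hj 0).continuous (hj 0).cpt,
        integral_mul_T hrt.continuous hrt.cpt (hj 1).continuous (hj 1).cpt]
      ring
    have hik : ∀ j, Integrable fun z => η z j * k j z := fun j => integrable_phi hψs hψ0 Φ j (hj j)
    have hiT : ∀ j, Integrable fun z => T j rt z * η z j := fun j =>
      (Test.mul_left (hTr j) (hj j)).integrable
    have h5 : ∫ z, (α z 0 * η z 1 - α z 1 * η z 0) =
        -(∫ z, T 0 rt z * η z 0) - (∫ z, T 1 rt z * η z 1) - (∫ z, η z 0 * k 0 z) -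
          ∫ z, η z 1 * k 1 z := by
      have h6 : ∀ z, α z 0 * η z 1 - α z 1 * η z 0 = (-(T 0 rt z * η z 0) - (T 1 rt z * η z 1)) -
          (η z 0 * k 0 z) - η z 1 * k 1 z := by
        intro z
        rw [hα0, hα1]
        ring
      have n0 : Integrable fun z => -(T 0 rt z * η z 0) := (hiT 0).neg
      have n1 : Integrable fun z => -(T 0 rt z * η z 0) - T 1 rt z * η z 1 := n0.sub (hiT 1)
      have n2 : Integrable fun z => -(T 0 rt z * η z 0) - T 1 rt z * η z 1 - η z 0 * k 0 z :=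
        n1.sub (hik 0)
      rw [integral_congr_ae (Eventually.of_forall h6), integral_sub n2 (hik 1),
        integral_sub n1 (hik 0), integral_sub n0 (hiT 1), integral_neg]
    rw [h2, h3, h3, h4, h5]
    ring
  · -- the equation
    intro z hz
    have hzo : ball (0 : C2) (5 / 2) ∈ 𝓝 z := isOpen_ball.mem_nhds hz
    have hdT : ∀ j, DifferentiableAt ℝ (T j rt) z := fun j =>
      (hTr j).differentiable (by simp) z
    have hdk : ∀ j, DifferentiableAt ℝ (k j) z := fun j =>
      ((hk j).differentiableOn (by simp)).differentiableAt hzo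
    have h1 : db 0 (fun w => α w 1) z = db 0 (T 0 rt) z + db 0 (k 0) z :=
      db_add (hdT 0) (hdk 0)
    have h2 : db 1 (fun w => α w 0) z = -(db 1 (T 1 rt) z) - db 1 (k 1) z := by
      have := db_sub (j := 1) (f := fun w => -(T 1 rt w)) (g := k 1) (hdT 1).neg (hdk 1)
      rw [db_neg] at this
      exact this
    have h3 := sum_db_Phi (R := 3) hψs hψ0 Φ hz
    have h4 := sum_db_T (hrt.smooth.of_le (by simp)) hrt.cpt z
    rw [Fin.sum_univ_two] at h3 h4
    have h5 : rt z = r z := by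
      show chi z * r z = r z
      rw [chi_spec.2.1 z (ball_subset_closedBall hz), one_mul]
    show db 0 (fun w => α w 1) z - db 1 (fun w => α w 0) z = r z
    rw [h1, h2, ← h5, ← h4]
    have h6 : db 0 (k 0) z + db 1 (k 1) z = 0 := h3
    linear_combination h6
  · -- sup bound
    intro B₀ hB₀ z hz
    have hB00 : 0 ≤ B₀ := (norm_nonneg _).trans (hB₀ 0 (by simp))
    have hz' : z ∈ ball (0 : C2) (5 / 2) :=
      closedBall_subset_ball (by norm_num) hz
    have hz3 : z ∈ closedBall (0 : C2) 3 := closedBall_subset_closedBall (by norm_num) hz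
    have hrtB : ∀ z, ‖rt z‖ ≤ B₀ := by
      intro w
      by_cases hw : w ∈ ball (0 : C2) 3
      · show ‖chi w * r w‖ ≤ B₀
        rw [norm_mul]
        calc ‖chi w‖ * ‖r w‖ ≤ 1 * B₀ := by
              gcongr
              · exact chi_spec.2.2.1 w
              · exact hB₀ w hw
          _ = B₀ := one_mul _
      · rw [hrt.eq_zero hw, norm_zero]; exact hB00
    have hrt0 : ∀ z, 3 ≤ ‖z‖ → rt z = 0 := fun w hw =>
      hrt.eq_zero (by rw [mem_ball_zero_iff, not_lt]; exact hw)
    have hT : ∀ j, ‖T j rt z‖ ≤ CT * B₀ := fun j => hCT j rt B₀ hrt.continuous hrt0 hrtB z hz3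
    have hkb : ∀ j, ‖k j z‖ ≤ M * CG := fun j =>
      (Phi_bound hψs hψ0 Φ hΦM hM j hz' (hCG j z hz)).1
    have hfin : CT * B₀ + M * CG ≤ (CT * (1 + CD) + CG + CT) * (M + B₀) := by
      have e1 : (CT * (1 + CD) + CG + CT) * (M + B₀) = CT * B₀ + M * CG +
        (CT * M + CT * CD * (M + B₀) + CG * B₀ + CT * (M + B₀)) := by ring
      rw [e1]
      have : 0 ≤ CT * M + CT * CD * (M + B₀) + CG * B₀ + CT * (M + B₀) := by positivity
      linarith
    rw [pi_norm_le_iff_of_nonneg (by positivity)]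
    intro i
    fin_cases i
    · show ‖-(T 1 rt z) - k 1 z‖ ≤ _
      refine (norm_sub_le _ _).trans (le_trans ?_ hfin)
      rw [norm_neg]
      exact add_le_add (hT 1) (hkb 1)
    · show ‖T 0 rt z + k 0 z‖ ≤ _
      refine (norm_add_le _ _).trans (le_trans ?_ hfin)
      exact add_le_add (hT 0) (hkb 0)
  · -- bound of the derivative
    intro B₀ B₁ hB₀ hB₁ z hz
    have hB00 : 0 ≤ B₀ := (norm_nonneg _).trans (hB₀ 0 (by simp))
    have hB10 : 0 ≤ B₁ := (norm_nonneg _).trans (hB₁ 0 (by simp))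
    have hz' : z ∈ ball (0 : C2) (5 / 2) :=
      closedBall_subset_ball (by norm_num) hz
    have hz3 : z ∈ closedBall (0 : C2) 3 := closedBall_subset_closedBall (by norm_num) hz
    have hzo : ball (0 : C2) (5 / 2) ∈ 𝓝 z := isOpen_ball.mem_nhds hz'
    have hdT : ∀ j, DifferentiableAt ℝ (T j rt) z := fun j =>
      (hTr j).differentiable (by simp) z
    have hdk : ∀ j, DifferentiableAt ℝ (k j) z := fun j =>
      ((hk j).differentiableOn (by simp)).differentiableAt hzo
    have hkb : ∀ j, ‖fderiv ℝ (k j) z‖ ≤ M * CG := fun j =>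
      (Phi_bound hψs hψ0 Φ hΦM hM j hz' (hCG j z hz)).2
    have hTb : ∀ j, ‖fderiv ℝ (T j rt) z‖ ≤ CT * ((1 + CD) * (B₀ + B₁)) := by
      intro j
      refine ContinuousLinearMap.opNorm_le_bound _ (by positivity) fun v => ?_
      rw [fderiv_T (hrt.smooth.of_le (by simp)) hrt.cpt]
      have h1 : ∀ w, ‖fderiv ℝ rt w v‖ ≤ (1 + CD) * (B₀ + B₁) * ‖v‖ := by
        intro w
        by_cases hw : w ∈ ball (0 : C2) 3
        · have h2 : fderiv ℝ rt w = chi w • fderiv ℝ r w + (fderiv ℝ chi w).smulRight (r w) :=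
            fderiv_fun_smul (chi_spec.1.smooth.differentiable (by simp) w)
              ((hr.differentiableOn (by simp)).differentiableAt (isOpen_ball.mem_nhds hw))
          have h3 : ‖fderiv ℝ rt w v‖ ≤ ‖fderiv ℝ rt w‖ * ‖v‖ := ContinuousLinearMap.le_opNorm _ _
          refine h3.trans ?_
          gcongr
          rw [h2]
          refine (norm_add_le _ _).trans ?_
          have e0 : ‖(fderiv ℝ chi w).smulRight (r w)‖ ≤ ‖fderiv ℝ chi w‖ * ‖r w‖ := by
            refine ContinuousLinearMap.opNorm_le_bound _ (by positivity) fun u => ?_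
            rw [ContinuousLinearMap.smulRight_apply, norm_smul]
            calc ‖fderiv ℝ chi w u‖ * ‖r w‖ ≤ (‖fderiv ℝ chi w‖ * ‖u‖) * ‖r w‖ := by
                  gcongr
                  exact ContinuousLinearMap.le_opNorm _ _
              _ = _ := by ring
          rw [norm_smul]
          have e1 : ‖chi w‖ * ‖fderiv ℝ r w‖ ≤ 1 * B₁ := by
            gcongr
            · exact chi_spec.2.2.1 w
            · exact hB₁ w hw
          have e2 : ‖fderiv ℝ chi w‖ * ‖r w‖ ≤ CD * B₀ := by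
            gcongr
            · exact hCD w
            · exact hB₀ w hw
          have e3 : 0 ≤ CD * B₁ + B₀ := by positivity
          linarith
        · have h2 : fderiv ℝ rt w = 0 := by
            have : w ∉ tsupport (fderiv ℝ rt) := fun h =>
              hw (hrt.supp (tsupport_fderiv_subset ℝ h))
            exact image_eq_zero_of_notMem_tsupport this
          rw [h2]
          simp only [_root_.zero_apply, norm_zero]
          positivity
      have h0 : ∀ w, 3 ≤ ‖w‖ → fderiv ℝ rt w v = 0 := by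
        intro w hw
        have : w ∉ tsupport (fderiv ℝ rt) := fun h => by
          have := hrt.supp (tsupport_fderiv_subset ℝ h)
          rw [mem_ball_zero_iff] at this
          linarith
        rw [image_eq_zero_of_notMem_tsupport this]
        rfl
      have h4 := hCT j (fun w => fderiv ℝ rt w v) _
        ((hrt.smooth.continuous_fderiv (by simp)).clm_apply continuous_const) h0 h1 z hz3
      refine h4.trans (le_of_eq ?_)
      ring
    have hfin : CT * ((1 + CD) * (B₀ + B₁)) + M * CG ≤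
        (CT * (1 + CD) + CG + CT) * (M + B₀ + B₁) := by
      have e1 : (CT * (1 + CD) + CG + CT) * (M + B₀ + B₁) = CT * ((1 + CD) * (B₀ + B₁)) + M * CG +
        (CT * (1 + CD) * M + CG * (B₀ + B₁) + CT * (M + B₀ + B₁)) := by ring
      rw [e1]
      have : 0 ≤ CT * (1 + CD) * M + CG * (B₀ + B₁) + CT * (M + B₀ + B₁) := by positivity
      linarith
    have hα : fderiv ℝ α z = ContinuousLinearMap.pi fun i => fderiv ℝ (fun w => α w i) z := by
      refine (hasFDerivAt_pi.2 fun i => ?_).fderiv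
      have hd : ∀ i, DifferentiableAt ℝ (fun w => α w i) z := by
        intro i
        fin_cases i
        · exact (hdT 1).neg.sub (hdk 1)
        · exact (hdT 0).add (hdk 0)
      exact (hd i).hasFDerivAt
    rw [hα]
    refine ContinuousLinearMap.opNorm_le_bound _ (by positivity) fun v => ?_
    rw [pi_norm_le_iff_of_nonneg (by positivity)]
    intro i
    rw [ContinuousLinearMap.pi_apply]
    refine (ContinuousLinearMap.le_opNorm _ _).trans ?_
    gcongr
    refine le_trans ?_ hfin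
    fin_cases i
    · have : fderiv ℝ (fun w => α w 0) z = -(fderiv ℝ (T 1 rt) z) - fderiv ℝ (k 1) z := by
        have e1 := fderiv_fun_sub (𝕜 := ℝ) (f := fun w => -(T 1 rt w)) (g := k 1) (hdT 1).neg (hdk 1)
        rw [fderiv_fun_neg] at e1
        exact e1
      show ‖fderiv ℝ (fun w => α w 0) z‖ ≤ _
      rw [this]
      refine (norm_sub_le _ _).trans ?_
      rw [norm_neg]
      exact add_le_add (hTb 1) (hkb 1)
    · have : fderiv ℝ (fun w => α w 1) z = fderiv ℝ (T 0 rt) z + fderiv ℝ (k 0) z :=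
        fderiv_fun_add (hdT 0) (hdk 0)
      show ‖fderiv ℝ (fun w => α w 1) z‖ ≤ _
      rw [this]
      refine (norm_add_le _ _).trans ?_
      exact add_le_add (hTb 0) (hkb 0)

end Vale.Agent.P267.H869
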