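import Vale.Agent.P267.H667.Op
import Vale.Agent.P267.H439.FamC

/-!
# P267 / XA-SMOOTH (helper869): test functions and order zero functionals on `ℂ²`

`Test Ω f`: smooth functions with compact support in `Ω`. `LF Ω M Λ`: `Λ` is linear on test
functions and `‖Λ f‖ ≤ M sup ‖f‖`. Such a functional extends to a continuous linear functional on
`C(closedBall c R, W)` if `Ω ⊆ closedBall c R`.
-/

set_option linter.unusedVariables false
set_option linter.unusedSectionVars false

open MeasureTheory Set Filter Metric Topology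
open scoped ContDiff

noncomputable section

namespace Vale.Agent.P267.H869

open Vale.Agent.P267.H667 Vale.Agent.P267.H439

section defs

variable {E : Type*} [NormedAddCommGroup E] [NormedSpace ℝ E]
variable {W : Type*} [NormedAddCommGroup W] [NormedSpace ℂ W]

/-- smooth with compact support in `Ω` -/
structure Test (Ω : Set C2) (f : C2 → W) : Prop where
  smooth : ContDiff ℝ ∞ f
  cpt : HasCompactSupport f
  supp : tsupport f ⊆ Ω

/-- linear functional on test functions, bounded by the sup norm -/
structure LF (W : Type*) [NormedAddCommGroup W] [NormedSpace ℂ W] (Ω : Set C2) (M : ℝ)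
    (Λ : (C2 → W) → ℂ) : Prop where
  add : ∀ f g : C2 → W, Test Ω f → Test Ω g → Λ (fun z => f z + g z) = Λ f + Λ g
  smul : ∀ (c : ℂ) (f : C2 → W), Test Ω f → Λ (fun z => c • f z) = c * Λ f
  bound : ∀ f : C2 → W, Test Ω f → ∀ B : ℝ, (∀ z, ‖f z‖ ≤ B) → ‖Λ f‖ ≤ M * B

variable {Ω Ω' : Set C2} {f g : C2 → W}

theorem Test.mono (h : Test Ω f) (hΩ : Ω ⊆ Ω') : Test Ω' f := ⟨h.smooth, h.cpt, h.supp.trans hΩ⟩

theorem Test.continuous (h : Test Ω f) : Continuous f := h.smooth.continuous

theorem Test.zero : Test Ω (fun _ : C2 => (0 : W)) :=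
  ⟨contDiff_const, HasCompactSupport.zero, by
    have : tsupport (fun _ : C2 => (0 : W)) = ∅ := by
      rw [tsupport_eq_empty_iff]; rfl
    rw [this]; exact empty_subset _⟩

theorem Test.eq_zero (h : Test Ω f) {z : C2} (hz : z ∉ Ω) : f z = 0 :=
  image_eq_zero_of_notMem_tsupport fun h' => hz (h.supp h')

theorem Test.add (hf : Test Ω f) (hg : Test Ω g) : Test Ω (fun z => f z + g z) :=
  ⟨hf.smooth.add hg.smooth, hf.cpt.add hg.cpt,
    (tsupport_add f g).trans (union_subset hf.supp hg.supp)⟩

theorem Test.neg (hf : Test Ω f) : Test Ω (fun z => -f z) :=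
  ⟨hf.smooth.neg, hf.cpt.neg, by
    have : tsupport (fun z => - f z) = tsupport f := by
      unfold tsupport; congr 1; ext z; simp
    rw [this]; exact hf.supp⟩

theorem Test.sub (hf : Test Ω f) (hg : Test Ω g) : Test Ω (fun z => f z - g z) := by
  simpa only [sub_eq_add_neg] using hf.add hg.neg

/-- multiplication by a smooth function -/
theorem Test.smul_left {a : C2 → ℂ} (ha : ContDiff ℝ ∞ a) (hf : Test Ω f) :
    Test Ω (fun z => a z • f z) :=
  ⟨ha.smul hf.smooth, hf.cpt.smul_left (f := a), (tsupport_smul_subset_right a f).trans hf.supp⟩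

theorem Test.const_smul (c : ℂ) (hf : Test Ω f) : Test Ω (fun z => c • f z) :=
  hf.smul_left (a := fun _ => c) contDiff_const

/-- a test function times a smooth function -/
theorem Test.smul_right {a : C2 → ℂ} (ha : Test Ω a) (hf : ContDiff ℝ ∞ f) :
    Test Ω (fun z => a z • f z) :=
  ⟨ha.smooth.smul hf, ha.cpt.smul_right (f' := f), (tsupport_smul_subset_left a f).trans ha.supp⟩

theorem Test.mul_right {a b : C2 → ℂ} (ha : Test Ω a) (hb : ContDiff ℝ ∞ b) :
    Test Ω (fun z => a z * b z) := ha.smul_right (f := b) hb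

theorem Test.mul_left {a b : C2 → ℂ} (ha : ContDiff ℝ ∞ a) (hb : Test Ω b) :
    Test Ω (fun z => a z * b z) := hb.smul_left (a := a) ha

theorem Test.db (j : Fin 2) (hf : Test Ω f) : Test Ω (db j f) :=
  ⟨contDiff_db hf.smooth (by simp), hasCompactSupport_db hf.cpt,
    (tsupport_db_subset j f).trans hf.supp⟩

/-- vector of two test functions -/
theorem Test.pi {f : C2 → Fin 2 → ℂ} : Test Ω f ↔ ∀ i, Test Ω (fun z => f z i) := by
  constructor
  · intro h i
    have hs : (Function.support fun z => f z i) ⊆ Function.support f := by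
      intro z hz h0
      apply hz
      show f z i = 0
      rw [h0]; rfl
    refine ⟨contDiff_pi.1 h.smooth i, ?_, (closure_mono hs).trans h.supp⟩
    exact h.cpt.mono hs
  · intro h
    have hs : Function.support f ⊆ ⋃ i, Function.support fun z => f z i := by
      intro z hz
      by_contra hc
      apply hz
      funext i
      by_contra h0
      exact hc (mem_iUnion.2 ⟨i, h0⟩)
    have ht : tsupport f ⊆ ⋃ i, tsupport fun z => f z i := by
      refine closure_minimal (hs.trans (iUnion_mono fun i => subset_tsupport _)) ?_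
      exact isClosed_iUnion_of_finite fun i => isClosed_tsupport _
    refine ⟨contDiff_pi.2 fun i => (h i).smooth, ?_, ht.trans (iUnion_subset fun i => (h i).supp)⟩
    refine IsCompact.of_isClosed_subset (isCompact_iUnion fun i => (h i).cpt) (isClosed_tsupport _) ht

theorem Test.integrable [CompleteSpace W] (hf : Test Ω f) : Integrable f :=
  hf.continuous.integrable_of_hasCompactSupport hf.cpt

end defs

/-! ### extension of functionals -/

section HB

variable {W : Type*} [NormedAddCommGroup W] [NormedSpace ℂ W]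

/-- restriction of a function on `ℂ²` to a closed ball -/
def res (c : C2) (R : ℝ) (f : C2 → W) : C(closedBall c R, W) := toC fun z => f z

theorem res_apply {c : C2} {R : ℝ} {f : C2 → W} (hf : Continuous f) (z : closedBall c R) :
    res c R f z = f z := toC_apply (hf.comp continuous_subtype_val) z

theorem res_apply' {c : C2} {R : ℝ} {f : C2 → W} (hf : ContinuousOn f (closedBall c R))
    (z : closedBall c R) : res c R f z = f z :=
  toC_apply (continuousOn_iff_continuous_domRestrict.1 hf) z

theorem LF.zero {Ω : Set C2} {M : ℝ} {Λ : (C2 → W) → ℂ} (h : LF W Ω M Λ) :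
    Λ (fun _ => 0) = 0 := by
  have := h.smul 0 (fun _ => 0) Test.zero
  simpa using this

theorem LF.neg {Ω : Set C2} {M : ℝ} {Λ : (C2 → W) → ℂ} (h : LF W Ω M Λ) {f : C2 → W}
    (hf : Test Ω f) : Λ (fun z => -f z) = -Λ f := by
  have := h.smul (-1) f hf
  simpa using this

theorem LF.sub {Ω : Set C2} {M : ℝ} {Λ : (C2 → W) → ℂ} (h : LF W Ω M Λ) {f g : C2 → W}
    (hf : Test Ω f) (hg : Test Ω g) : Λ (fun z => f z - g z) = Λ f - Λ g := by
  have := h.add f (fun z => -g z) hf hg.neg
  rw [h.neg hg] at this
  simpa only [sub_eq_add_neg] using this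

/-- Hahn-Banach extension of a functional of order zero -/
theorem LF.exists_extension {Ω : Set C2} {M : ℝ} {Λ : (C2 → W) → ℂ} (h : LF W Ω M Λ)
    (hM : 0 ≤ M) {c : C2} {R : ℝ} (hΩ : Ω ⊆ closedBall c R) :
    ∃ Φ : C(closedBall c R, W) →L[ℂ] ℂ, ‖Φ‖ ≤ M ∧ ∀ f, Test Ω f → Φ (res c R f) = Λ f := by
  classical
  -- the subspace of test functions
  have huniq : ∀ f g : C2 → W, Test Ω f → Test Ω g → res c R f = res c R g → f = g := by
    intro f g hf hg hfg
    funext z
    by_cases hz : z ∈ closedBall c R
    · have := congrArg (fun k : C(closedBall c R, W) => k ⟨z, hz⟩) hfg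
      simpa only [res_apply hf.continuous, res_apply hg.continuous] using this
    · rw [hf.eq_zero fun h' => hz (hΩ h'), hg.eq_zero fun h' => hz (hΩ h')]
  have hadd : ∀ f g : C2 → W, Test Ω f → Test Ω g →
      res c R (fun z => f z + g z) = res c R f + res c R g := by
    intro f g hf hg
    ext z
    rw [res_apply (hf.add hg).continuous, ContinuousMap.add_apply, res_apply hf.continuous,
      res_apply hg.continuous]
  have hsmul : ∀ (a : ℂ) (f : C2 → W), Test Ω f →
      res c R (fun z => a • f z) = a • res c R f := by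
    intro a f hf
    ext z
    rw [res_apply (hf.const_smul a).continuous, ContinuousMap.smul_apply, res_apply hf.continuous]
  let p : Submodule ℂ C(closedBall c R, W) :=
    { carrier := {g | ∃ f, Test Ω f ∧ res c R f = g}
      add_mem' := by
        rintro _ _ ⟨f, hf, rfl⟩ ⟨g, hg, rfl⟩
        exact ⟨_, hf.add hg, hadd f g hf hg⟩
      zero_mem' := ⟨fun _ => 0, Test.zero, by ext z; rw [res_apply continuous_const]; rfl⟩
      smul_mem' := by
        rintro a _ ⟨f, hf, rfl⟩
        exact ⟨_, hf.const_smul a, hsmul a f hf⟩ }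
  let φ : p → (C2 → W) := fun g => Classical.choose g.2
  have hφ : ∀ g : p, Test Ω (φ g) ∧ res c R (φ g) = g := fun g => Classical.choose_spec g.2
  let L : p →ₗ[ℂ] ℂ :=
    { toFun := fun g => Λ (φ g)
      map_add' := by
        intro g1 g2
        have h1 : φ (g1 + g2) = fun z => φ g1 z + φ g2 z := by
          refine huniq _ _ (hφ _).1 ((hφ g1).1.add (hφ g2).1) ?_
          rw [(hφ _).2, hadd _ _ (hφ g1).1 (hφ g2).1, (hφ g1).2, (hφ g2).2]
          rfl
        rw [h1, h.add _ _ (hφ g1).1 (hφ g2).1]
      map_smul' := by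
        intro a g1
        have h1 : φ (a • g1) = fun z => a • φ g1 z := by
          refine huniq _ _ (hφ _).1 ((hφ g1).1.const_smul a) ?_
          rw [(hφ _).2, hsmul _ _ (hφ g1).1, (hφ g1).2]
          rfl
        rw [h1, h.smul _ _ (hφ g1).1]
        rfl }
  have hL : ∀ g : p, ‖L g‖ ≤ M * ‖g‖ := by
    intro g
    refine h.bound _ (hφ g).1 _ ?_
    intro z
    by_cases hz : z ∈ closedBall c R
    · have h1 : φ g z = (g : C(closedBall c R, W)) ⟨z, hz⟩ := by
        have := congrArg (fun k : C(closedBall c R, W) => k ⟨z, hz⟩) (hφ g).2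
        simpa only [res_apply (hφ g).1.continuous] using this
      rw [h1]
      exact (g : C(closedBall c R, W)).norm_coe_le_norm _
    · rw [(hφ g).1.eq_zero fun h' => hz (hΩ h'), norm_zero]
      exact norm_nonneg _
  obtain ⟨Φ, hΦ, hn⟩ := exists_extension_norm_eq p (L.mkContinuous M hL)
  refine ⟨Φ, ?_, ?_⟩
  · rw [hn]
    exact L.mkContinuous_norm_le hM hL
  · intro f hf
    have hmem : res c R f ∈ p := ⟨f, hf, rfl⟩
    have h1 := hΦ ⟨res c R f, hmem⟩
    rw [h1]
    show Λ (φ ⟨res c R f, hmem⟩) = Λ f
    congr 1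
    exact huniq _ _ (hφ _).1 hf (hφ ⟨res c R f, hmem⟩).2

end HB

end Vale.Agent.P267.H869
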